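import Mathlib

namespace Vale.Agent.P358

open Finset

/-- Splitting a sum over bit strings of length `n + 1` at the first bit. -/
theorem sum_cons {n : ℕ} {M : Type*} [AddCommMonoid M] (F : (Fin (n + 1) → Fin 2) → M) :
    ∑ x, F x = ∑ a : Fin 2, ∑ x' : Fin n → Fin 2, F (Fin.cons a x') := by
  rw [← (Fin.consEquiv (fun _ : Fin (n + 1) => Fin 2)).sum_comp, Fintype.sum_prod_type]
  rfl

/-- The real single-site tensor of a phase covariant qubit map: `d` is the classical transition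
matrix and `c` the damping factor of the coherences. -/
def tG (d : Fin 2 → Fin 2 → ℝ) (c : ℝ) (x y u v : Fin 2) : ℝ :=
  if x = y then (if u = v then d x u else 0) else (if u = x ∧ v = y then c else 0)

/-- The bilinear form `B_n`. -/
def Bn (t : Fin 2 → Fin 2 → Fin 2 → Fin 2 → ℝ) (n : ℕ) (φ χ : (Fin n → Fin 2) → ℝ)
    (x y : Fin n → Fin 2) : ℝ :=
  ∑ u, ∑ v, (∏ i, t (x i) (y i) (u i) (v i)) * (φ u * χ v)

/-- The weighted Hilbert-Schmidt square. -/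
def En (t : Fin 2 → Fin 2 → Fin 2 → Fin 2 → ℝ) (p : Fin 2 → ℝ) (n : ℕ)
    (φ χ : (Fin n → Fin 2) → ℝ) : ℝ :=
  ∑ x, ∑ y, (∏ i, (p (x i) * p (y i))) * (Bn t n φ χ x y) ^ 2

theorem Bn_succ (t : Fin 2 → Fin 2 → Fin 2 → Fin 2 → ℝ) (n : ℕ)
    (φ χ : (Fin (n + 1) → Fin 2) → ℝ) (x0 y0 : Fin 2) (x' y' : Fin n → Fin 2) :
    Bn t (n + 1) φ χ (Fin.cons x0 x') (Fin.cons y0 y') =
      ∑ u0, ∑ v0, t x0 y0 u0 v0 *
        Bn t n (fun u' => φ (Fin.cons u0 u')) (fun v' => χ (Fin.cons v0 v')) x' y' := by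
  unfold Bn
  rw [sum_cons]
  refine Finset.sum_congr rfl fun u0 _ => ?_
  have : ∀ u' : Fin n → Fin 2,
      ∑ v : Fin (n + 1) → Fin 2, (∏ i, t ((Fin.cons x0 x' : Fin (n + 1) → Fin 2) i)
        ((Fin.cons y0 y' : Fin (n + 1) → Fin 2) i) ((Fin.cons u0 u' : Fin (n + 1) → Fin 2) i) (v i))
          * (φ (Fin.cons u0 u') * χ v) =
      ∑ v0, ∑ v' : Fin n → Fin 2, t x0 y0 u0 v0 * ((∏ i, t (x' i) (y' i) (u' i) (v' i)) *
        (φ (Fin.cons u0 u') * χ (Fin.cons v0 v'))) := by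
    intro u'
    rw [sum_cons]
    refine Finset.sum_congr rfl fun v0 _ => Finset.sum_congr rfl fun v' _ => ?_
    rw [Fin.prod_univ_succ]
    simp only [Fin.cons_zero, Fin.cons_succ]
    ring
  simp_rw [this]
  rw [Finset.sum_comm]
  refine Finset.sum_congr rfl fun v0 _ => ?_
  rw [Finset.mul_sum]
  refine Finset.sum_congr rfl fun u' _ => ?_
  rw [Finset.mul_sum]


theorem En_succ (t : Fin 2 → Fin 2 → Fin 2 → Fin 2 → ℝ) (p : Fin 2 → ℝ) (n : ℕ)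
    (φ χ : (Fin (n + 1) → Fin 2) → ℝ) :
    En t p (n + 1) φ χ = ∑ x0, ∑ y0, (p x0 * p y0) *
      ∑ x' : Fin n → Fin 2, ∑ y' : Fin n → Fin 2, (∏ i, (p (x' i) * p (y' i))) *
        (∑ u0, ∑ v0, t x0 y0 u0 v0 *
          Bn t n (fun u' => φ (Fin.cons u0 u')) (fun v' => χ (Fin.cons v0 v')) x' y') ^ 2 := by
  unfold En
  rw [sum_cons]
  refine Finset.sum_congr rfl fun x0 _ => ?_
  have : ∀ x' : Fin n → Fin 2,
      ∑ y : Fin (n + 1) → Fin 2, (∏ i, (p ((Fin.cons x0 x' : Fin (n + 1) → Fin 2) i) * p (y i))) *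
        (Bn t (n + 1) φ χ (Fin.cons x0 x') y) ^ 2 =
      ∑ y0, ∑ y' : Fin n → Fin 2, (p x0 * p y0) * ((∏ i, (p (x' i) * p (y' i))) *
        (∑ u0, ∑ v0, t x0 y0 u0 v0 *
          Bn t n (fun u' => φ (Fin.cons u0 u')) (fun v' => χ (Fin.cons v0 v')) x' y') ^ 2) := by
    intro x'
    rw [sum_cons]
    refine Finset.sum_congr rfl fun y0 _ => Finset.sum_congr rfl fun y' _ => ?_
    rw [Fin.prod_univ_succ, Bn_succ]
    simp only [Fin.cons_zero, Fin.cons_succ]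
    ring
  simp_rw [this]
  rw [Finset.sum_comm]
  refine Finset.sum_congr rfl fun y0 _ => ?_
  rw [Finset.mul_sum]
  refine Finset.sum_congr rfl fun x' _ => ?_
  rw [Finset.mul_sum]

/-- weighted Cauchy-Schwarz for double sums -/
theorem ip_cs {X : Type*} [Fintype X] (W F G : X → X → ℝ) (hW : ∀ x y, 0 ≤ W x y) :
    (∑ x, ∑ y, W x y * (F x y * G x y)) ^ 2 ≤
      (∑ x, ∑ y, W x y * (F x y) ^ 2) * (∑ x, ∑ y, W x y * (G x y) ^ 2) := by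
  simp only [← Fintype.sum_prod_type']
  apply Finset.sum_sq_le_sum_mul_sum_of_sq_le_mul
  · intro z _; exact mul_nonneg (hW _ _) (sq_nonneg _)
  · intro z _; exact mul_nonneg (hW _ _) (sq_nonneg _)
  · intro z _; apply le_of_eq; ring

theorem ip_expand {X : Type*} [Fintype X] (W F G : X → X → ℝ) (a b : ℝ) :
    ∑ x, ∑ y, W x y * (a * F x y + b * G x y) ^ 2 =
      a ^ 2 * (∑ x, ∑ y, W x y * (F x y) ^ 2) + 2 * (a * b) * (∑ x, ∑ y, W x y * (F x y * G x y))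
        + b ^ 2 * (∑ x, ∑ y, W x y * (G x y) ^ 2) := by
  simp only [Finset.mul_sum, ← Finset.sum_add_distrib]
  refine Finset.sum_congr rfl fun x _ => Finset.sum_congr rfl fun y _ => ?_
  ring

theorem ip_scale {X : Type*} [Fintype X] (W F : X → X → ℝ) (a : ℝ) :
    ∑ x, ∑ y, W x y * (a * F x y) ^ 2 = a ^ 2 * (∑ x, ∑ y, W x y * (F x y) ^ 2) := by
  simp only [Finset.mul_sum]
  refine Finset.sum_congr rfl fun x _ => Finset.sum_congr rfl fun y _ => ?_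
  ring

theorem En_tG_succ (d : Fin 2 → Fin 2 → ℝ) (c : ℝ) (p : Fin 2 → ℝ) (n : ℕ)
    (φ χ : (Fin (n + 1) → Fin 2) → ℝ) :
    En (tG d c) p (n + 1) φ χ =
      (p 0 * p 0) * ∑ x' : Fin n → Fin 2, ∑ y' : Fin n → Fin 2, (∏ i, (p (x' i) * p (y' i))) *
        (d 0 0 * Bn (tG d c) n (fun u' => φ (Fin.cons 0 u')) (fun v' => χ (Fin.cons 0 v')) x' y' +
         d 0 1 * Bn (tG d c) n (fun u' => φ (Fin.cons 1 u')) (fun v' => χ (Fin.cons 1 v')) x' y') ^ 2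
      + (p 0 * p 1) * ∑ x' : Fin n → Fin 2, ∑ y' : Fin n → Fin 2, (∏ i, (p (x' i) * p (y' i))) *
        (c * Bn (tG d c) n (fun u' => φ (Fin.cons 0 u')) (fun v' => χ (Fin.cons 1 v')) x' y') ^ 2
      + (p 1 * p 0) * ∑ x' : Fin n → Fin 2, ∑ y' : Fin n → Fin 2, (∏ i, (p (x' i) * p (y' i))) *
        (c * Bn (tG d c) n (fun u' => φ (Fin.cons 1 u')) (fun v' => χ (Fin.cons 0 v')) x' y') ^ 2
      + (p 1 * p 1) * ∑ x' : Fin n → Fin 2, ∑ y' : Fin n → Fin 2, (∏ i, (p (x' i) * p (y' i))) *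
        (d 1 0 * Bn (tG d c) n (fun u' => φ (Fin.cons 0 u')) (fun v' => χ (Fin.cons 0 v')) x' y' +
         d 1 1 * Bn (tG d c) n (fun u' => φ (Fin.cons 1 u')) (fun v' => χ (Fin.cons 1 v')) x' y') ^ 2
      := by
  rw [En_succ]
  simp only [Fin.sum_univ_two]
  have h01 : (0 : Fin 2) ≠ 1 := by decide
  have h10 : (1 : Fin 2) ≠ 0 := by decide
  simp only [tG, h01, h10, if_true, if_false, and_true, and_false,
    zero_mul, add_zero, zero_add, and_self]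
  ring


theorem le_of_sq_le_sq_of_nonneg {x y : ℝ} (hy : 0 ≤ y) (h : x ^ 2 ≤ y ^ 2) : x ≤ y :=
  (le_abs_self x).trans (abs_le_of_sq_le_sq h hy)

/-- Multiplicativity of the weighted output `2`-norm, in bilinear form. -/
theorem En_le (d : Fin 2 → Fin 2 → ℝ) (c : ℝ) (p : Fin 2 → ℝ) (K : ℝ)
    (hd : ∀ x u, 0 ≤ d x u) (hp : ∀ x, 0 ≤ p x)
    (hH : ∀ X Y : ℝ, 0 ≤ X → 0 ≤ Y →
      (p 0) ^ 2 * (d 0 0 * X + d 0 1 * Y) ^ 2 + (p 1) ^ 2 * (d 1 0 * X + d 1 1 * Y) ^ 2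
        + 2 * (p 0 * p 1 * c ^ 2) * (X * Y) ≤ K * (X + Y) ^ 2)
    (hκ : p 0 * p 1 * c ^ 2 ≤ K) (n : ℕ) :
    ∀ φ χ : (Fin n → Fin 2) → ℝ,
      En (tG d c) p n φ χ ≤ K ^ n * ((∑ u, φ u ^ 2) * (∑ v, χ v ^ 2)) := by
  have hK : 0 ≤ K := le_trans (mul_nonneg (mul_nonneg (hp 0) (hp 1)) (sq_nonneg c)) hκ
  induction n with
  | zero =>
    intro φ χ
    simp only [En, Bn, Finset.univ_unique, Finset.sum_singleton, Finset.univ_eq_empty,
      Finset.prod_empty, one_mul, pow_zero]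
    apply le_of_eq; ring
  | succ n ih =>
    intro φ χ
    rw [En_tG_succ]
    set φ0 : (Fin n → Fin 2) → ℝ := fun u' => φ (Fin.cons 0 u') with hφ0
    set φ1 : (Fin n → Fin 2) → ℝ := fun u' => φ (Fin.cons 1 u') with hφ1
    set χ0 : (Fin n → Fin 2) → ℝ := fun u' => χ (Fin.cons 0 u') with hχ0
    set χ1 : (Fin n → Fin 2) → ℝ := fun u' => χ (Fin.cons 1 u') with hχ1
    set W : (Fin n → Fin 2) → (Fin n → Fin 2) → ℝ := fun x' y' => ∏ i, (p (x' i) * p (y' i)) with hW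
    have hWnn : ∀ x y, 0 ≤ W x y := fun x y =>
      Finset.prod_nonneg fun i _ => mul_nonneg (hp _) (hp _)
    rw [ip_expand W, ip_expand W, ip_scale W, ip_scale W]
    set e00 := ∑ x, ∑ y, W x y * (Bn (tG d c) n φ0 χ0 x y) ^ 2 with he00
    set e11 := ∑ x, ∑ y, W x y * (Bn (tG d c) n φ1 χ1 x y) ^ 2 with he11
    set e01 := ∑ x, ∑ y, W x y * (Bn (tG d c) n φ0 χ1 x y) ^ 2 with he01
    set e10 := ∑ x, ∑ y, W x y * (Bn (tG d c) n φ1 χ0 x y) ^ 2 with he10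
    set ii := ∑ x, ∑ y, W x y * (Bn (tG d c) n φ0 χ0 x y * Bn (tG d c) n φ1 χ1 x y) with hii
    set F0 := Real.sqrt (∑ u, φ0 u ^ 2) with hF0
    set F1 := Real.sqrt (∑ u, φ1 u ^ 2) with hF1
    set G0 := Real.sqrt (∑ u, χ0 u ^ 2) with hG0
    set G1 := Real.sqrt (∑ u, χ1 u ^ 2) with hG1
    have hF0s : F0 ^ 2 = ∑ u, φ0 u ^ 2 := Real.sq_sqrt (Finset.sum_nonneg fun _ _ => sq_nonneg _)
    have hF1s : F1 ^ 2 = ∑ u, φ1 u ^ 2 := Real.sq_sqrt (Finset.sum_nonneg fun _ _ => sq_nonneg _)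
    have hG0s : G0 ^ 2 = ∑ u, χ0 u ^ 2 := Real.sq_sqrt (Finset.sum_nonneg fun _ _ => sq_nonneg _)
    have hG1s : G1 ^ 2 = ∑ u, χ1 u ^ 2 := Real.sq_sqrt (Finset.sum_nonneg fun _ _ => sq_nonneg _)
    have hF0n : 0 ≤ F0 := Real.sqrt_nonneg _
    have hF1n : 0 ≤ F1 := Real.sqrt_nonneg _
    have hG0n : 0 ≤ G0 := Real.sqrt_nonneg _
    have hG1n : 0 ≤ G1 := Real.sqrt_nonneg _
    set A := K ^ n with hA
    have hAn : 0 ≤ A := pow_nonneg hK n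
    have b00 : e00 ≤ A * (F0 ^ 2 * G0 ^ 2) := by rw [hF0s, hG0s]; exact ih φ0 χ0
    have b11 : e11 ≤ A * (F1 ^ 2 * G1 ^ 2) := by rw [hF1s, hG1s]; exact ih φ1 χ1
    have b01 : e01 ≤ A * (F0 ^ 2 * G1 ^ 2) := by rw [hF0s, hG1s]; exact ih φ0 χ1
    have b10 : e10 ≤ A * (F1 ^ 2 * G0 ^ 2) := by rw [hF1s, hG0s]; exact ih φ1 χ0
    have e00n : 0 ≤ e00 := Finset.sum_nonneg fun x _ => Finset.sum_nonneg fun y _ =>
      mul_nonneg (hWnn x y) (sq_nonneg _)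
    have e11n : 0 ≤ e11 := Finset.sum_nonneg fun x _ => Finset.sum_nonneg fun y _ =>
      mul_nonneg (hWnn x y) (sq_nonneg _)
    have bii : ii ≤ A * (F0 * G0 * (F1 * G1)) := by
      apply le_of_sq_le_sq_of_nonneg (by positivity)
      calc ii ^ 2 ≤ e00 * e11 := ip_cs W _ _ hWnn
        _ ≤ (A * (F0 ^ 2 * G0 ^ 2)) * (A * (F1 ^ 2 * G1 ^ 2)) :=
            mul_le_mul b00 b11 e11n (by positivity)
        _ = (A * (F0 * G0 * (F1 * G1))) ^ 2 := by ring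
    have hsumφ : ∑ u, φ u ^ 2 = F0 ^ 2 + F1 ^ 2 := by
      rw [sum_cons, Fin.sum_univ_two, hF0s, hF1s]
    have hsumχ : ∑ u, χ u ^ 2 = G0 ^ 2 + G1 ^ 2 := by
      rw [sum_cons, Fin.sum_univ_two, hG0s, hG1s]
    rw [hsumφ, hsumχ]
    have hss := hH (F0 * G0) (F1 * G1) (by positivity) (by positivity)
    have hsq : 0 ≤ (K - p 0 * p 1 * c ^ 2) * (F0 * G1 - F1 * G0) ^ 2 :=
      mul_nonneg (sub_nonneg.2 hκ) (sq_nonneg _)
    have hp0 := hp 0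
    have hp1 := hp 1
    have h1 : p 0 * p 0 * (d 0 0 ^ 2 * e00 + 2 * (d 0 0 * d 0 1) * ii + d 0 1 ^ 2 * e11) ≤
        p 0 * p 0 * (d 0 0 ^ 2 * (A * (F0 ^ 2 * G0 ^ 2)) + 2 * (d 0 0 * d 0 1) *
          (A * (F0 * G0 * (F1 * G1))) + d 0 1 ^ 2 * (A * (F1 ^ 2 * G1 ^ 2))) := by
      apply mul_le_mul_of_nonneg_left _ (mul_nonneg hp0 hp0)
      have := mul_le_mul_of_nonneg_left b00 (sq_nonneg (d 0 0))
      have := mul_le_mul_of_nonneg_left b11 (sq_nonneg (d 0 1))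
      have := mul_le_mul_of_nonneg_left bii
        (mul_nonneg (by norm_num : (0:ℝ) ≤ 2) (mul_nonneg (hd 0 0) (hd 0 1)))
      linarith
    have h2 : p 1 * p 1 * (d 1 0 ^ 2 * e00 + 2 * (d 1 0 * d 1 1) * ii + d 1 1 ^ 2 * e11) ≤
        p 1 * p 1 * (d 1 0 ^ 2 * (A * (F0 ^ 2 * G0 ^ 2)) + 2 * (d 1 0 * d 1 1) *
          (A * (F0 * G0 * (F1 * G1))) + d 1 1 ^ 2 * (A * (F1 ^ 2 * G1 ^ 2))) := by
      apply mul_le_mul_of_nonneg_left _ (mul_nonneg hp1 hp1)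
      have := mul_le_mul_of_nonneg_left b00 (sq_nonneg (d 1 0))
      have := mul_le_mul_of_nonneg_left b11 (sq_nonneg (d 1 1))
      have := mul_le_mul_of_nonneg_left bii
        (mul_nonneg (by norm_num : (0:ℝ) ≤ 2) (mul_nonneg (hd 1 0) (hd 1 1)))
      linarith
    have h3 : p 0 * p 1 * (c ^ 2 * e01) ≤ p 0 * p 1 * (c ^ 2 * (A * (F0 ^ 2 * G1 ^ 2))) :=
      mul_le_mul_of_nonneg_left (mul_le_mul_of_nonneg_left b01 (sq_nonneg c))
        (mul_nonneg hp0 hp1)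
    have h4 : p 1 * p 0 * (c ^ 2 * e10) ≤ p 1 * p 0 * (c ^ 2 * (A * (F1 ^ 2 * G0 ^ 2))) :=
      mul_le_mul_of_nonneg_left (mul_le_mul_of_nonneg_left b10 (sq_nonneg c))
        (mul_nonneg hp1 hp0)
    have hfin : A * ((p 0) ^ 2 * (d 0 0 * (F0 * G0) + d 0 1 * (F1 * G1)) ^ 2 +
        (p 1) ^ 2 * (d 1 0 * (F0 * G0) + d 1 1 * (F1 * G1)) ^ 2
        + 2 * (p 0 * p 1 * c ^ 2) * ((F0 * G0) * (F1 * G1))) ≤
        A * (K * (F0 * G0 + F1 * G1) ^ 2) := mul_le_mul_of_nonneg_left hss hAn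
    have hsq' := mul_nonneg hAn hsq
    have hpow : K ^ (n + 1) = A * K := by rw [pow_succ]
    rw [hpow]
    linarith [h1, h2, h3, h4, hfin, hsq']

end Vale.Agent.P358
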