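import Mathlib

namespace Vale.Agent.P358

open Finset Matrix
open scoped ComplexOrder

section scalar

variable {κ : Type*} [Fintype κ]

theorem scalar_lower (l v : κ → ℝ) (hl : ∀ k, 0 ≤ l k) (hsum : ∑ k, l k = 1) :
    2 * ∑ k, l k * v k - ∑ k, Real.negMulLog (l k) ≤
      Real.log (∑ k, l k ^ 2 * Real.exp (2 * v k)) := by
  set Z := ∑ k, l k ^ 2 * Real.exp (2 * v k) with hZ
  have hZpos : 0 < Z := by
    have hex : ∃ k, 0 < l k := by
      by_contra hcon
      push Not at hcon
      have : ∑ k, l k ≤ 0 := Finset.sum_nonpos fun k _ => hcon k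
      linarith
    obtain ⟨k, hk⟩ := hex
    have h1 : 0 < l k ^ 2 * Real.exp (2 * v k) := by positivity
    have h2 : l k ^ 2 * Real.exp (2 * v k) ≤ Z :=
      Finset.single_le_sum (f := fun k => l k ^ 2 * Real.exp (2 * v k))
        (fun i _ => by positivity) (Finset.mem_univ k)
    linarith
  have hterm : ∀ k, 2 * (l k * v k) - Real.negMulLog (l k) ≤
      l k ^ 2 * Real.exp (2 * v k) / Z + l k * (Real.log Z - 1) := by
    intro k
    rcases (hl k).eq_or_lt with h0 | hpos
    · rw [← h0]; simp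
    · have hz : 0 < l k * Real.exp (2 * v k) / Z := by positivity
      have h := Real.log_le_sub_one_of_pos hz
      rw [Real.log_div (by positivity) hZpos.ne', Real.log_mul hpos.ne' (Real.exp_pos _).ne',
        Real.log_exp] at h
      have h' := mul_le_mul_of_nonneg_left h hpos.le
      have e1 : l k * (l k * Real.exp (2 * v k) / Z - 1) =
          l k ^ 2 * Real.exp (2 * v k) / Z - l k := by ring
      rw [e1] at h'
      unfold Real.negMulLog
      nlinarith
  calc 2 * ∑ k, l k * v k - ∑ k, Real.negMulLog (l k)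
      = ∑ k, (2 * (l k * v k) - Real.negMulLog (l k)) := by
        rw [Finset.sum_sub_distrib, Finset.mul_sum]
    _ ≤ ∑ k, (l k ^ 2 * Real.exp (2 * v k) / Z + l k * (Real.log Z - 1)) :=
        Finset.sum_le_sum fun k _ => hterm k
    _ = Real.log Z := by
        rw [Finset.sum_add_distrib, ← Finset.sum_div, ← Finset.sum_mul, hsum, ← hZ,
          div_self hZpos.ne']
        ring

theorem scalar_upper (l u : κ → ℝ) (hl : ∀ k, 0 ≤ l k) (hsum : ∑ k, l k = 1)
    (hu : ∑ k, Real.exp (u k) ≤ 1) :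
    ∑ k, Real.negMulLog (l k) + ∑ k, l k * u k ≤ 0 := by
  have hterm : ∀ k, Real.negMulLog (l k) + l k * u k ≤ Real.exp (u k) - l k := by
    intro k
    rcases (hl k).eq_or_lt with h0 | hpos
    · rw [← h0]; simp [(Real.exp_pos (u k)).le]
    · have hz : 0 < Real.exp (u k) / l k := by positivity
      have h := Real.log_le_sub_one_of_pos hz
      rw [Real.log_div (Real.exp_pos _).ne' hpos.ne', Real.log_exp] at h
      have h' := mul_le_mul_of_nonneg_left h hpos.le
      have e1 : l k * (Real.exp (u k) / l k - 1) = Real.exp (u k) - l k := by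
        field_simp
      rw [e1] at h'
      unfold Real.negMulLog
      nlinarith
  calc ∑ k, Real.negMulLog (l k) + ∑ k, l k * u k
      = ∑ k, (Real.negMulLog (l k) + l k * u k) := by rw [Finset.sum_add_distrib]
    _ ≤ ∑ k, (Real.exp (u k) - l k) := Finset.sum_le_sum fun k _ => hterm k
    _ = ∑ k, Real.exp (u k) - 1 := by rw [Finset.sum_sub_distrib, hsum]
    _ ≤ 0 := by linarith

theorem exp_jensen (P a : κ → ℝ) (hP : ∀ x, 0 ≤ P x) (hsum : ∑ x, P x = 1) :
    Real.exp (∑ x, P x * a x) ≤ ∑ x, P x * Real.exp (a x) := by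
  have := convexOn_exp.map_sum_le (t := Finset.univ) (w := P) (p := a)
    (fun i _ => hP i) hsum (fun i _ => Set.mem_univ _)
  simpa [smul_eq_mul] using this

end scalar


section matrix

variable {X : Type*} [Fintype X] [DecidableEq X]

theorem exists_spectral (A : Matrix X X ℂ) (hA : A.IsHermitian) :
    ∃ U : Matrix X X ℂ, U * Uᴴ = 1 ∧ Uᴴ * U = 1 ∧
      A = U * diagonal (fun k => ((hA.eigenvalues k : ℝ) : ℂ)) * Uᴴ := by
  refine ⟨(hA.eigenvectorUnitary : Matrix X X ℂ), ?_, ?_, ?_⟩
  · exact Unitary.coe_mul_star_self hA.eigenvectorUnitary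
  · exact Unitary.coe_star_mul_self hA.eigenvectorUnitary
  · have := hA.spectral_theorem
    rw [Unitary.conjStarAlgAut_apply] at this
    exact this

variable (U : Matrix X X ℂ) (l : X → ℝ)

theorem udu_apply (x y : X) :
    (U * diagonal (fun k => ((l k : ℝ) : ℂ)) * Uᴴ) x y =
      ∑ k, U x k * (l k : ℂ) * (starRingEnd ℂ) (U y k) := by
  rw [Matrix.mul_apply]
  refine Finset.sum_congr rfl fun k _ => ?_
  rw [Matrix.mul_diagonal, Matrix.conjTranspose_apply]
  rfl

theorem col_sum (hU : Uᴴ * U = 1) (k : X) : ∑ x, Complex.normSq (U x k) = 1 := by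
  have h := congrFun (congrFun hU k) k
  rw [Matrix.mul_apply, Matrix.one_apply_eq] at h
  have h2 : ∑ x, Uᴴ k x * U x k = ((∑ x, Complex.normSq (U x k) : ℝ) : ℂ) := by
    rw [Complex.ofReal_sum]
    refine Finset.sum_congr rfl fun x _ => ?_
    rw [Matrix.conjTranspose_apply, ← Complex.mul_conj, mul_comm]
    rfl
  rw [h2] at h
  exact_mod_cast h

theorem row_sum (hU : U * Uᴴ = 1) (x : X) : ∑ k, Complex.normSq (U x k) = 1 := by
  have h := congrFun (congrFun hU x) x
  rw [Matrix.mul_apply, Matrix.one_apply_eq] at h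
  have h2 : ∑ k, U x k * Uᴴ k x = ((∑ k, Complex.normSq (U x k) : ℝ) : ℂ) := by
    rw [Complex.ofReal_sum]
    refine Finset.sum_congr rfl fun k _ => ?_
    rw [Matrix.conjTranspose_apply, ← Complex.mul_conj]
    rfl
  rw [h2] at h
  exact_mod_cast h

theorem udu_diag (x : X) :
    (U * diagonal (fun k => ((l k : ℝ) : ℂ)) * Uᴴ) x x =
      ((∑ k, l k * Complex.normSq (U x k) : ℝ) : ℂ) := by
  rw [udu_apply, Complex.ofReal_sum]
  refine Finset.sum_congr rfl fun k _ => ?_
  rw [Complex.ofReal_mul, ← Complex.mul_conj]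
  ring

theorem trace_sq_herm (B : Matrix X X ℂ) (hB : B.IsHermitian) (w : X → ℝ) :
    trace (B * diagonal (fun k => ((w k : ℝ) : ℂ)) * (B * diagonal (fun k => ((w k : ℝ) : ℂ)))) =
      ((∑ x, ∑ y, w x * w y * Complex.normSq (B x y) : ℝ) : ℂ) := by
  rw [Matrix.trace, Complex.ofReal_sum]
  refine Finset.sum_congr rfl fun x _ => ?_
  rw [Matrix.diag_apply, Matrix.mul_apply, Complex.ofReal_sum]
  refine Finset.sum_congr rfl fun y _ => ?_
  rw [Matrix.mul_diagonal, Matrix.mul_diagonal, ← hB.apply y x, Complex.ofReal_mul,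
    Complex.ofReal_mul, ← Complex.mul_conj]
  simp only [RCLike.star_def]
  ring

theorem hs_identity (hA : (U * diagonal (fun k => ((l k : ℝ) : ℂ)) * Uᴴ).IsHermitian)
    (w : X → ℝ) :
    ∑ x, ∑ y, w x * w y *
        Complex.normSq ((U * diagonal (fun k => ((l k : ℝ) : ℂ)) * Uᴴ) x y) =
      ∑ k, ∑ j, l k * l j *
        Complex.normSq ((Uᴴ * diagonal (fun k => ((w k : ℝ) : ℂ)) * U) k j) := by
  set D := diagonal (fun k => ((l k : ℝ) : ℂ)) with hD
  set W := diagonal (fun k => ((w k : ℝ) : ℂ)) with hW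
  have hM : (Uᴴ * W * U).IsHermitian := by
    unfold Matrix.IsHermitian
    have hWh : Wᴴ = W := by
      rw [hW, Matrix.diagonal_conjTranspose]
      congr 1
      funext k
      simp
    rw [Matrix.conjTranspose_mul, Matrix.conjTranspose_mul, Matrix.conjTranspose_conjTranspose,
      hWh, Matrix.mul_assoc]
  have h1 := trace_sq_herm (U * D * Uᴴ) hA w
  have h2 := trace_sq_herm (Uᴴ * W * U) hM l
  have h3 : trace (U * D * Uᴴ * W * (U * D * Uᴴ * W)) = trace (Uᴴ * W * U * D * (Uᴴ * W * U * D)) := by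
    calc trace (U * D * Uᴴ * W * (U * D * Uᴴ * W))
        = trace (U * (D * Uᴴ * W * U * D * Uᴴ * W)) := by simp only [Matrix.mul_assoc]
      _ = trace ((D * Uᴴ * W * U * D * Uᴴ * W) * U) := Matrix.trace_mul_comm _ _
      _ = trace (D * (Uᴴ * W * U * D * Uᴴ * W * U)) := by simp only [Matrix.mul_assoc]
      _ = trace ((Uᴴ * W * U * D * Uᴴ * W * U) * D) := Matrix.trace_mul_comm _ _
      _ = trace (Uᴴ * W * U * D * (Uᴴ * W * U * D)) := by simp only [Matrix.mul_assoc]
  rw [h1, h2] at h3
  exact_mod_cast h3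

theorem uwu_diag (w : X → ℝ) (k : X) :
    (Uᴴ * diagonal (fun k => ((w k : ℝ) : ℂ)) * U) k k =
      ((∑ x, Complex.normSq (U x k) * w x : ℝ) : ℂ) := by
  rw [Matrix.mul_apply, Complex.ofReal_sum]
  refine Finset.sum_congr rfl fun x _ => ?_
  rw [Matrix.mul_diagonal, Matrix.conjTranspose_apply, Complex.ofReal_mul, ← Complex.mul_conj]
  simp only [RCLike.star_def]
  ring


theorem sum_eigenvalues_eq_one (A : Matrix X X ℂ) (hA : A.IsHermitian) (htr : A.trace = 1) :
    ∑ k, hA.eigenvalues k = 1 := by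
  have h := hA.trace_eq_sum_eigenvalues
  rw [htr] at h
  have h2 : ((∑ k, hA.eigenvalues k : ℝ) : ℂ) = 1 := by
    rw [Complex.ofReal_sum]; exact h.symm
  exact_mod_cast h2

theorem entropy_lower (A : Matrix X X ℂ) (hA : A.PosSemidef) (htr : A.trace = 1)
    (w : X → ℝ) (hw : ∀ x, 0 < w x) (R : ℝ)
    (hR : ∑ x, ∑ y, w x * w y * Complex.normSq (A x y) ≤ R) :
    2 * ∑ x, (A x x).re * Real.log (w x) - ∑ k, Real.negMulLog (hA.1.eigenvalues k) ≤
      Real.log R := by
  obtain ⟨U, hU1, hU2, hAeq⟩ := exists_spectral A hA.1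
  set l := hA.1.eigenvalues with hl_def
  have hl : ∀ k, 0 ≤ l k := fun k => hA.eigenvalues_nonneg k
  have hsum : ∑ k, l k = 1 := sum_eigenvalues_eq_one A hA.1 htr
  set v : X → ℝ := fun k => ∑ x, Complex.normSq (U x k) * Real.log (w x) with hv
  have hentry : ∀ x y, A x y = (U * diagonal (fun k => ((l k : ℝ) : ℂ)) * Uᴴ) x y :=
    fun x y => congrFun (congrFun hAeq x) y
  have hdiag : ∀ x, (A x x).re = ∑ k, l k * Complex.normSq (U x k) := by
    intro x
    rw [hentry x x, udu_diag, Complex.ofReal_re]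
  have h1 : ∑ x, (A x x).re * Real.log (w x) = ∑ k, l k * v k := by
    simp only [hdiag, hv, Finset.sum_mul, Finset.mul_sum]
    rw [Finset.sum_comm]
    refine Finset.sum_congr rfl fun k _ => Finset.sum_congr rfl fun x _ => ?_
    ring
  rw [h1]
  refine (scalar_lower l v hl hsum).trans ?_
  have hZpos : 0 < ∑ k, l k ^ 2 * Real.exp (2 * v k) := by
    have hex : ∃ k, 0 < l k := by
      by_contra hcon
      push Not at hcon
      have : ∑ k, l k ≤ 0 := Finset.sum_nonpos fun k _ => hcon k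
      linarith
    obtain ⟨k, hk⟩ := hex
    have h1 : 0 < l k ^ 2 * Real.exp (2 * v k) := by positivity
    have h2 : l k ^ 2 * Real.exp (2 * v k) ≤ ∑ k, l k ^ 2 * Real.exp (2 * v k) :=
      Finset.single_le_sum (f := fun k => l k ^ 2 * Real.exp (2 * v k))
        (fun i _ => by positivity) (Finset.mem_univ k)
    linarith
  apply Real.log_le_log hZpos
  refine le_trans ?_ hR
  have hherm : (U * diagonal (fun k => ((l k : ℝ) : ℂ)) * Uᴴ).IsHermitian := by
    rw [← hAeq]; exact hA.1
  have hid := hs_identity U l hherm w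
  have hQ : ∑ x, ∑ y, w x * w y * Complex.normSq (A x y) =
      ∑ k, ∑ j, l k * l j *
        Complex.normSq ((Uᴴ * diagonal (fun k => ((w k : ℝ) : ℂ)) * U) k j) := by
    rw [← hid]
    refine Finset.sum_congr rfl fun x _ => Finset.sum_congr rfl fun y _ => ?_
    rw [hentry x y]
  rw [hQ]
  refine Finset.sum_le_sum fun k _ => ?_
  have hsingle : l k * l k *
      Complex.normSq ((Uᴴ * diagonal (fun k => ((w k : ℝ) : ℂ)) * U) k k) ≤
      ∑ j, l k * l j *
        Complex.normSq ((Uᴴ * diagonal (fun k => ((w k : ℝ) : ℂ)) * U) k j) :=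
    Finset.single_le_sum (f := fun j => l k * l j *
        Complex.normSq ((Uᴴ * diagonal (fun k => ((w k : ℝ) : ℂ)) * U) k j))
      (fun j _ => mul_nonneg (mul_nonneg (hl k) (hl j)) (Complex.normSq_nonneg _))
      (Finset.mem_univ k)
  refine le_trans ?_ hsingle
  rw [uwu_diag, Complex.normSq_ofReal]
  have hj : Real.exp (v k) ≤ ∑ x, Complex.normSq (U x k) * w x := by
    have := exp_jensen (fun x => Complex.normSq (U x k)) (fun x => Real.log (w x))
      (fun x => Complex.normSq_nonneg _) (col_sum U hU2 k)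
    simpa [Real.exp_log (hw _)] using this
  have he : Real.exp (2 * v k) = Real.exp (v k) * Real.exp (v k) := by
    rw [← Real.exp_add]; ring_nf
  rw [he]
  have hpos := (Real.exp_pos (v k)).le
  have hmm : Real.exp (v k) * Real.exp (v k) ≤
      (∑ x, Complex.normSq (U x k) * w x) * (∑ x, Complex.normSq (U x k) * w x) :=
    mul_le_mul hj hj hpos (hpos.trans hj)
  calc l k ^ 2 * (Real.exp (v k) * Real.exp (v k))
      ≤ l k ^ 2 * ((∑ x, Complex.normSq (U x k) * w x) * (∑ x, Complex.normSq (U x k) * w x)) :=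
        mul_le_mul_of_nonneg_left hmm (sq_nonneg _)
    _ = l k * l k * ((∑ x, Complex.normSq (U x k) * w x) *
        (∑ x, Complex.normSq (U x k) * w x)) := by ring

theorem entropy_upper (A : Matrix X X ℂ) (hA : A.PosSemidef) (htr : A.trace = 1)
    (s : X → ℝ) (hs : ∀ x, 0 < s x) (hs1 : ∑ x, s x ≤ 1) :
    ∑ k, Real.negMulLog (hA.1.eigenvalues k) ≤ - ∑ x, (A x x).re * Real.log (s x) := by
  obtain ⟨U, hU1, hU2, hAeq⟩ := exists_spectral A hA.1
  set l := hA.1.eigenvalues with hl_def
  have hl : ∀ k, 0 ≤ l k := fun k => hA.eigenvalues_nonneg k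
  have hsum : ∑ k, l k = 1 := sum_eigenvalues_eq_one A hA.1 htr
  set u : X → ℝ := fun k => ∑ x, Complex.normSq (U x k) * Real.log (s x) with hu
  have hentry : ∀ x y, A x y = (U * diagonal (fun k => ((l k : ℝ) : ℂ)) * Uᴴ) x y :=
    fun x y => congrFun (congrFun hAeq x) y
  have hdiag : ∀ x, (A x x).re = ∑ k, l k * Complex.normSq (U x k) := by
    intro x
    rw [hentry x x, udu_diag, Complex.ofReal_re]
  have h1 : ∑ x, (A x x).re * Real.log (s x) = ∑ k, l k * u k := by
    simp only [hdiag, hu, Finset.sum_mul, Finset.mul_sum]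
    rw [Finset.sum_comm]
    refine Finset.sum_congr rfl fun k _ => Finset.sum_congr rfl fun x _ => ?_
    ring
  rw [h1]
  have hexp : ∑ k, Real.exp (u k) ≤ 1 := by
    calc ∑ k, Real.exp (u k) ≤ ∑ k, ∑ x, Complex.normSq (U x k) * s x := by
          refine Finset.sum_le_sum fun k _ => ?_
          have := exp_jensen (fun x => Complex.normSq (U x k)) (fun x => Real.log (s x))
            (fun x => Complex.normSq_nonneg _) (col_sum U hU2 k)
          simpa [Real.exp_log (hs _)] using this
      _ = ∑ x, (∑ k, Complex.normSq (U x k)) * s x := by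
          rw [Finset.sum_comm]
          refine Finset.sum_congr rfl fun x _ => ?_
          rw [Finset.sum_mul]
      _ = ∑ x, s x := by
          refine Finset.sum_congr rfl fun x _ => ?_
          rw [row_sum U hU1 x, one_mul]
      _ ≤ 1 := hs1
  have := scalar_upper l u hl hsum hexp
  linarith


omit [Fintype X] [DecidableEq X] in
theorem psd_diag_re_nonneg (A : Matrix X X ℂ) (hA : A.PosSemidef) (x : X) : 0 ≤ (A x x).re := by
  have h := hA.diag_nonneg (i := x)
  exact (Complex.le_def.1 h).1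

theorem psd_entry_le (A : Matrix X X ℂ) (hA : A.PosSemidef) (x y : X) :
    ‖A x y‖ ≤ Real.sqrt ((A x x).re) * Real.sqrt ((A y y).re) := by
  obtain ⟨U, hU1, hU2, hAeq⟩ := exists_spectral A hA.1
  set l := hA.1.eigenvalues with hl_def
  have hl : ∀ k, 0 ≤ l k := fun k => hA.eigenvalues_nonneg k
  have hentry : ∀ x y, A x y = (U * diagonal (fun k => ((l k : ℝ) : ℂ)) * Uᴴ) x y :=
    fun x y => congrFun (congrFun hAeq x) y
  have hdiag : ∀ x, (A x x).re = ∑ k, l k * Complex.normSq (U x k) := by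
    intro x
    rw [hentry x x, udu_diag, Complex.ofReal_re]
  rw [hdiag x, hdiag y, hentry x y, udu_apply]
  refine (norm_sum_le _ _).trans ?_
  refine le_trans (le_of_eq ?_) (Real.sum_sqrt_mul_sqrt_le Finset.univ
    (f := fun k => l k * Complex.normSq (U x k)) (g := fun k => l k * Complex.normSq (U y k))
    (fun k => mul_nonneg (hl k) (Complex.normSq_nonneg _))
    (fun k => mul_nonneg (hl k) (Complex.normSq_nonneg _)))
  refine Finset.sum_congr rfl fun k _ => ?_
  rw [← Real.sqrt_mul (mul_nonneg (hl k) (Complex.normSq_nonneg _))]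
  have e : l k * Complex.normSq (U x k) * (l k * Complex.normSq (U y k)) =
      (‖U x k‖ * l k * ‖U y k‖) ^ 2 := by
    rw [Complex.normSq_eq_norm_sq, Complex.normSq_eq_norm_sq]; ring
  rw [e, Real.sqrt_sq (by have := hl k; positivity)]
  rw [Complex.norm_mul, Complex.norm_mul, RCLike.norm_conj, Complex.norm_real,
    Real.norm_of_nonneg (hl k)]

end matrix

end Vale.Agent.P358
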