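import Vale.Agent.P358.Defs
import Vale.Agent.P358.RealInd
import Vale.Agent.P358.Spectral

namespace Vale.Agent.P358

open Finset Matrix
open scoped ComplexOrder

/-- classical transition matrix of the channel -/
noncomputable def dG (γ ν : ℝ) : Fin 2 → Fin 2 → ℝ :=
  ![![1 - γ * ν, γ * (1 - ν)], ![γ * ν, 1 - γ * (1 - ν)]]

theorem gadc_single (γ ν : ℝ) (x y u v : Fin 2) :
    gadc γ ν (Matrix.single u v 1) x y = ((tG (dG γ ν) (Real.sqrt (1 - γ)) x y u v : ℝ) : ℂ) := by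
  fin_cases x <;> fin_cases y <;> fin_cases u <;> fin_cases v <;>
    simp [gadc, tG, dG, Matrix.single]

/-- real Kraus operators -/
noncomputable def Kr (γ ν : ℝ) : Fin 4 → Fin 2 → Fin 2 → ℝ :=
  ![![![Real.sqrt (1 - ν), 0], ![0, Real.sqrt (1 - ν) * Real.sqrt (1 - γ)]],
    ![![0, Real.sqrt (1 - ν) * Real.sqrt γ], ![0, 0]],
    ![![Real.sqrt ν * Real.sqrt (1 - γ), 0], ![0, Real.sqrt ν]],
    ![![0, 0], ![Real.sqrt ν * Real.sqrt γ, 0]]]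

theorem kraus_sum (γ ν : ℝ) (hγ0 : 0 ≤ γ) (hγ1 : γ ≤ 1) (hν0 : 0 ≤ ν) (hν1 : ν ≤ 1)
    (x y u v : Fin 2) :
    ∑ j, Kr γ ν j x u * Kr γ ν j y v = tG (dG γ ν) (Real.sqrt (1 - γ)) x y u v := by
  have h1 : Real.sqrt (1 - ν) ^ 2 = 1 - ν := Real.sq_sqrt (by linarith)
  have h2 : Real.sqrt ν ^ 2 = ν := Real.sq_sqrt hν0
  have h3 : Real.sqrt (1 - γ) ^ 2 = 1 - γ := Real.sq_sqrt (by linarith)
  have h4 : Real.sqrt γ ^ 2 = γ := Real.sq_sqrt hγ0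
  fin_cases x <;> fin_cases y <;> fin_cases u <;> fin_cases v <;>
    simp [Fin.sum_univ_four, Kr, tG, dG] <;> ring_nf <;> simp only [h1, h2, h3, h4] <;> ring


theorem tensorPow_apply (γ ν : ℝ) (n : ℕ) (ρ : Matrix (Fin n → Fin 2) (Fin n → Fin 2) ℂ)
    (x y : Fin n → Fin 2) :
    tensorPow (gadc γ ν) n ρ x y =
      ∑ u, ∑ v, ((∏ i, tG (dG γ ν) (Real.sqrt (1 - γ)) (x i) (y i) (u i) (v i) : ℝ) : ℂ) * ρ u v := by
  unfold tensorPow
  refine Finset.sum_congr rfl fun u _ => Finset.sum_congr rfl fun v _ => ?_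
  rw [Complex.ofReal_prod]
  congr 1
  exact Finset.prod_congr rfl fun i _ => gadc_single γ ν _ _ _ _

/-- `n`-fold Kraus operators -/
noncomputable def Kn (γ ν : ℝ) (n : ℕ) (j : Fin n → Fin 4) :
    Matrix (Fin n → Fin 2) (Fin n → Fin 2) ℂ :=
  fun x u => ((∏ i, Kr γ ν (j i) (x i) (u i) : ℝ) : ℂ)

theorem kraus_prod (γ ν : ℝ) (hγ0 : 0 ≤ γ) (hγ1 : γ ≤ 1) (hν0 : 0 ≤ ν) (hν1 : ν ≤ 1) (n : ℕ)
    (x y u v : Fin n → Fin 2) :
    ∑ j : Fin n → Fin 4, (∏ i, Kr γ ν (j i) (x i) (u i)) * (∏ i, Kr γ ν (j i) (y i) (v i)) =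
      ∏ i, tG (dG γ ν) (Real.sqrt (1 - γ)) (x i) (y i) (u i) (v i) := by
  have h := Finset.prod_univ_sum (fun _ : Fin n => (Finset.univ : Finset (Fin 4)))
    (fun i j => Kr γ ν j (x i) (u i) * Kr γ ν j (y i) (v i))
  rw [Fintype.piFinset_univ] at h
  rw [← Finset.prod_congr rfl fun i _ => kraus_sum γ ν hγ0 hγ1 hν0 hν1 (x i) (y i) (u i) (v i), h]
  refine Finset.sum_congr rfl fun j _ => ?_
  rw [Finset.prod_mul_distrib]

theorem tensorPow_eq_kraus (γ ν : ℝ) (hγ0 : 0 ≤ γ) (hγ1 : γ ≤ 1) (hν0 : 0 ≤ ν) (hν1 : ν ≤ 1)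
    (n : ℕ) (ρ : Matrix (Fin n → Fin 2) (Fin n → Fin 2) ℂ) :
    tensorPow (gadc γ ν) n ρ = ∑ j, Kn γ ν n j * ρ * (Kn γ ν n j)ᴴ := by
  ext x y
  rw [tensorPow_apply, Matrix.sum_apply]
  have h : ∀ j : Fin n → Fin 4, (Kn γ ν n j * ρ * (Kn γ ν n j)ᴴ) x y =
      ∑ u, ∑ v, (((∏ i, Kr γ ν (j i) (x i) (u i)) * (∏ i, Kr γ ν (j i) (y i) (v i)) : ℝ) : ℂ)
        * ρ u v := by
    intro j
    rw [Matrix.mul_apply]
    simp only [Matrix.mul_apply, Matrix.conjTranspose_apply, Kn, Finset.sum_mul]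
    rw [Finset.sum_comm]
    refine Finset.sum_congr rfl fun u _ => Finset.sum_congr rfl fun v _ => ?_
    simp only [RCLike.star_def, Complex.conj_ofReal, Complex.ofReal_mul]
    ring
  simp_rw [h]
  conv_rhs => rw [Finset.sum_comm]
  refine Finset.sum_congr rfl fun u _ => ?_
  conv_rhs => rw [Finset.sum_comm]
  refine Finset.sum_congr rfl fun v _ => ?_
  rw [← Finset.sum_mul, ← kraus_prod γ ν hγ0 hγ1 hν0 hν1, Complex.ofReal_sum]

theorem tensorPow_posSemidef (γ ν : ℝ) (hγ0 : 0 ≤ γ) (hγ1 : γ ≤ 1) (hν0 : 0 ≤ ν) (hν1 : ν ≤ 1)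
    (n : ℕ) (ρ : Matrix (Fin n → Fin 2) (Fin n → Fin 2) ℂ) (hρ : ρ.PosSemidef) :
    (tensorPow (gadc γ ν) n ρ).PosSemidef := by
  rw [tensorPow_eq_kraus γ ν hγ0 hγ1 hν0 hν1]
  exact Matrix.posSemidef_sum _ fun j _ => hρ.mul_mul_conjTranspose_same _

theorem tG_trace (γ ν : ℝ) (u v : Fin 2) :
    ∑ x, tG (dG γ ν) (Real.sqrt (1 - γ)) x x u v = if u = v then 1 else 0 := by
  fin_cases u <;> fin_cases v <;> simp [Fin.sum_univ_two, tG, dG]

theorem tensorPow_trace (γ ν : ℝ) (n : ℕ) (ρ : Matrix (Fin n → Fin 2) (Fin n → Fin 2) ℂ) :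
    (tensorPow (gadc γ ν) n ρ).trace = ρ.trace := by
  unfold Matrix.trace
  simp only [Matrix.diag_apply, tensorPow_apply]
  rw [Finset.sum_comm]
  refine Finset.sum_congr rfl fun u _ => ?_
  rw [Finset.sum_comm]
  have h : ∀ v : Fin n → Fin 2,
      ∑ x : Fin n → Fin 2,
        ((∏ i, tG (dG γ ν) (Real.sqrt (1 - γ)) (x i) (x i) (u i) (v i) : ℝ) : ℂ) * ρ u v =
      if u = v then ρ u v else 0 := by
    intro v
    rw [← Finset.sum_mul, ← Complex.ofReal_sum]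
    have h2 := Finset.prod_univ_sum (fun _ : Fin n => (Finset.univ : Finset (Fin 2)))
      (fun i x0 => tG (dG γ ν) (Real.sqrt (1 - γ)) x0 x0 (u i) (v i))
    rw [Fintype.piFinset_univ] at h2
    rw [← h2]
    simp only [tG_trace]
    rw [Finset.prod_ite_zero]
    by_cases huv : u = v
    · subst huv; simp
    · have : ¬ ∀ i ∈ (Finset.univ : Finset (Fin n)), u i = v i := by
        intro hcon
        exact huv (funext fun i => hcon i (Finset.mem_univ i))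
      rw [if_neg this, if_neg huv]
      simp
  simp_rw [h]
  simp

end Vale.Agent.P358
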