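import Vale.Agent.P358.Channel

namespace Vale.Agent.P358

open Finset Matrix
open scoped ComplexOrder

/-- single-site weights -/
noncomputable def pW (τ : ℝ) : Fin 2 → ℝ := ![(Real.sqrt (1 - τ))⁻¹, (Real.sqrt τ)⁻¹]

theorem dG_nonneg (γ ν : ℝ) (hγ0 : 0 ≤ γ) (hγ1 : γ ≤ 1) (hν0 : 0 ≤ ν) (hν1 : ν ≤ 1) (x u : Fin 2) :
    0 ≤ dG γ ν x u := by
  have h1 : γ * ν ≤ 1 := by nlinarith
  have h2 : γ * (1 - ν) ≤ 1 := by nlinarith
  have h3 : 0 ≤ γ * ν := mul_nonneg hγ0 hν0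
  have h4 : 0 ≤ γ * (1 - ν) := mul_nonneg hγ0 (by linarith)
  fin_cases x <;> fin_cases u <;> simp [dG] <;> linarith

theorem tG_nonneg (d : Fin 2 → Fin 2 → ℝ) (c : ℝ) (hd : ∀ x u, 0 ≤ d x u) (hc : 0 ≤ c)
    (x y u v : Fin 2) : 0 ≤ tG d c x y u v := by
  unfold tG
  split_ifs <;> first | exact hd _ _ | exact hc | exact le_rfl

theorem pW_pos (τ : ℝ) (hτ0 : 0 < τ) (hτ1 : τ < 1) (x : Fin 2) : 0 < pW τ x := by
  have h1 : 0 < Real.sqrt (1 - τ) := Real.sqrt_pos.2 (by linarith)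
  have h2 : 0 < Real.sqrt τ := Real.sqrt_pos.2 hτ0
  fin_cases x <;> simp [pW] <;> assumption

section params

variable (γ ν τ K : ℝ) (hγ0 : 0 ≤ γ) (hγ1 : γ ≤ 1) (hν0 : 0 ≤ ν) (hν1 : ν ≤ 1)
  (hτ0 : 0 < τ) (hτ1 : τ < 1)
  (hK : ∀ q : ℝ, 0 ≤ q → q ≤ 1 →
    (1 - ((1 - γ) * q + γ * ν)) ^ 2 / (1 - τ) + ((1 - γ) * q + γ * ν) ^ 2 / τ
      + 2 * (1 - γ) * q * (1 - q) / Real.sqrt (τ * (1 - τ)) ≤ K)

include hγ1 hτ0 hτ1 hK in
theorem hH_of_hK (X Y : ℝ) (hX : 0 ≤ X) (hY : 0 ≤ Y) :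
    (pW τ 0) ^ 2 * (dG γ ν 0 0 * X + dG γ ν 0 1 * Y) ^ 2 +
      (pW τ 1) ^ 2 * (dG γ ν 1 0 * X + dG γ ν 1 1 * Y) ^ 2
        + 2 * (pW τ 0 * pW τ 1 * (Real.sqrt (1 - γ)) ^ 2) * (X * Y) ≤ K * (X + Y) ^ 2 := by
  have hs0 : 0 < Real.sqrt (1 - τ) := Real.sqrt_pos.2 (by linarith)
  have hs1 : 0 < Real.sqrt τ := Real.sqrt_pos.2 hτ0
  have hs0s : Real.sqrt (1 - τ) ^ 2 = 1 - τ := Real.sq_sqrt (by linarith)
  have hs1s : Real.sqrt τ ^ 2 = τ := Real.sq_sqrt hτ0.le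
  have hc : Real.sqrt (1 - γ) ^ 2 = 1 - γ := Real.sq_sqrt (by linarith)
  have hprod : Real.sqrt (τ * (1 - τ)) = Real.sqrt τ * Real.sqrt (1 - τ) :=
    Real.sqrt_mul hτ0.le _
  have e0 : pW τ 0 = (Real.sqrt (1 - τ))⁻¹ := by simp [pW]
  have e1 : pW τ 1 = (Real.sqrt τ)⁻¹ := by simp [pW]
  have d00 : dG γ ν 0 0 = 1 - γ * ν := by simp [dG]
  have d01 : dG γ ν 0 1 = γ * (1 - ν) := by simp [dG]
  have d10 : dG γ ν 1 0 = γ * ν := by simp [dG]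
  have d11 : dG γ ν 1 1 = 1 - γ * (1 - ν) := by simp [dG]
  rw [e0, e1, d00, d01, d10, d11, hc]
  rcases (add_nonneg hX hY).eq_or_lt with h0 | hpos
  · have hX0 : X = 0 := by linarith
    have hY0 : Y = 0 := by linarith
    subst hX0; subst hY0; simp
  · set S := X + Y with hS
    have hq0 : 0 ≤ Y / S := div_nonneg hY hpos.le
    have hq1 : Y / S ≤ 1 := by rw [div_le_one hpos]; linarith
    have h := hK (Y / S) hq0 hq1
    rw [hprod] at h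
    have h' := mul_le_mul_of_nonneg_right h (sq_nonneg S)
    refine le_trans (le_of_eq ?_) h'
    have hXS : X = S - Y := by rw [hS]; ring
    rw [hXS, inv_pow, inv_pow, hs0s, hs1s]
    have hτ1' : (1 - τ) ≠ 0 := by linarith
    field_simp
    ring

include hγ1 hν0 hν1 hτ0 hτ1 hK in
theorem hκ_of_hK : pW τ 0 * pW τ 1 * (Real.sqrt (1 - γ)) ^ 2 ≤ K := by
  have hs0 : 0 < Real.sqrt (1 - τ) := Real.sqrt_pos.2 (by linarith)
  have hs1 : 0 < Real.sqrt τ := Real.sqrt_pos.2 hτ0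
  have hc : Real.sqrt (1 - γ) ^ 2 = 1 - γ := Real.sq_sqrt (by linarith)
  have hA := hH_of_hK γ ν τ K hγ1 hτ0 hτ1 hK 1 0 (by norm_num) le_rfl
  have hB := hH_of_hK γ ν τ K hγ1 hτ0 hτ1 hK 0 1 le_rfl (by norm_num)
  have d00 : dG γ ν 0 0 = 1 - γ * ν := by simp [dG]
  have d11 : dG γ ν 1 1 = 1 - γ * (1 - ν) := by simp [dG]
  have p0 := (pW_pos τ hτ0 hτ1 0).le
  have p1 := (pW_pos τ hτ0 hτ1 1).le
  simp only [mul_one, mul_zero, add_zero, zero_add, one_pow] at hA hB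
  rw [hc]
  rw [d00] at hA
  rw [d11] at hB
  have h1 : 0 ≤ (pW τ 1) ^ 2 * (dG γ ν 1 0) ^ 2 := by positivity
  have h2 : 0 ≤ (pW τ 0) ^ 2 * (dG γ ν 0 1) ^ 2 := by positivity
  have h3 : 0 ≤ (pW τ 0 * (1 - γ * ν) - pW τ 1 * (1 - γ * (1 - ν))) ^ 2 := sq_nonneg _
  have h4 : (1 - γ) ≤ (1 - γ * ν) * (1 - γ * (1 - ν)) := by
    have : 0 ≤ γ ^ 2 * (ν * (1 - ν)) := by
      apply mul_nonneg (sq_nonneg _) (mul_nonneg hν0 (by linarith))
    nlinarith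
  have h5 : pW τ 0 * pW τ 1 * (1 - γ) ≤ pW τ 0 * pW τ 1 * ((1 - γ * ν) * (1 - γ * (1 - ν))) :=
    mul_le_mul_of_nonneg_left h4 (mul_nonneg p0 p1)
  nlinarith

include hτ0 hτ1 hK in
theorem one_le_K : 1 ≤ K := by
  have h := hK 0 le_rfl (by norm_num)
  simp only [mul_zero, zero_add, zero_mul, zero_div, add_zero] at h
  refine le_trans ?_ h
  have hτ1' : 0 < 1 - τ := by linarith
  have : (1 - γ * ν) ^ 2 / (1 - τ) + (γ * ν) ^ 2 / τ - 1 = (γ * ν - τ) ^ 2 / (τ * (1 - τ)) := by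
    field_simp
    ring
  have h2 : 0 ≤ (γ * ν - τ) ^ 2 / (τ * (1 - τ)) := by positivity
  linarith


/-- product weights -/
noncomputable def wW (τ : ℝ) (n : ℕ) (x : Fin n → Fin 2) : ℝ := ∏ i, pW τ (x i)

theorem wW_pos (hτ0 : 0 < τ) (hτ1 : τ < 1) (n : ℕ) (x : Fin n → Fin 2) : 0 < wW τ n x :=
  Finset.prod_pos fun i _ => pW_pos τ hτ0 hτ1 (x i)

theorem sum_inv_wW_sq (hτ0 : 0 < τ) (hτ1 : τ < 1) (n : ℕ) :
    ∑ x : Fin n → Fin 2, ((wW τ n x) ^ 2)⁻¹ = 1 := by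
  have h2 := Finset.prod_univ_sum (fun _ : Fin n => (Finset.univ : Finset (Fin 2)))
    (fun _ x0 => ((pW τ x0) ^ 2)⁻¹)
  rw [Fintype.piFinset_univ] at h2
  have h3 : ∑ x0 : Fin 2, ((pW τ x0) ^ 2)⁻¹ = 1 := by
    rw [Fin.sum_univ_two]
    have e0 : pW τ 0 = (Real.sqrt (1 - τ))⁻¹ := by simp [pW]
    have e1 : pW τ 1 = (Real.sqrt τ)⁻¹ := by simp [pW]
    rw [e0, e1, inv_pow, inv_pow, inv_inv, inv_inv, Real.sq_sqrt (by linarith),
      Real.sq_sqrt hτ0.le]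
    ring
  simp only [h3, Finset.prod_const_one] at h2
  rw [h2]
  refine Finset.sum_congr rfl fun x _ => ?_
  unfold wW
  rw [← Finset.prod_pow, Finset.prod_inv_distrib]

include hγ0 hγ1 hν0 hν1 in
theorem dominate (n : ℕ) (ρ : Matrix (Fin n → Fin 2) (Fin n → Fin 2) ℂ) (hρ : ρ.PosSemidef)
    (x y : Fin n → Fin 2) :
    ‖tensorPow (gadc γ ν) n ρ x y‖ ≤
      Bn (tG (dG γ ν) (Real.sqrt (1 - γ))) n (fun u => Real.sqrt ((ρ u u).re))
        (fun u => Real.sqrt ((ρ u u).re)) x y := by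
  rw [tensorPow_apply]
  unfold Bn
  refine (norm_sum_le _ _).trans (Finset.sum_le_sum fun u _ => ?_)
  refine (norm_sum_le _ _).trans (Finset.sum_le_sum fun v _ => ?_)
  have hT : 0 ≤ ∏ i, tG (dG γ ν) (Real.sqrt (1 - γ)) (x i) (y i) (u i) (v i) :=
    Finset.prod_nonneg fun i _ => tG_nonneg _ _ (dG_nonneg γ ν hγ0 hγ1 hν0 hν1)
      (Real.sqrt_nonneg _) _ _ _ _
  rw [Complex.norm_mul, Complex.norm_real, Real.norm_of_nonneg hT]
  exact mul_le_mul_of_nonneg_left (psd_entry_le ρ hρ u v) hT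

include hγ0 hγ1 hν0 hν1 hτ0 hτ1 hK in
theorem outputQ_le (n : ℕ) (ρ : Matrix (Fin n → Fin 2) (Fin n → Fin 2) ℂ) (hρ : IsState ρ) :
    ∑ x, ∑ y, wW τ n x * wW τ n y * Complex.normSq (tensorPow (gadc γ ν) n ρ x y) ≤ K ^ n := by
  set ψ : (Fin n → Fin 2) → ℝ := fun u => Real.sqrt ((ρ u u).re) with hψ
  have hE := En_le (dG γ ν) (Real.sqrt (1 - γ)) (pW τ) K (dG_nonneg γ ν hγ0 hγ1 hν0 hν1)
    (fun x => (pW_pos τ hτ0 hτ1 x).le) (hH_of_hK γ ν τ K hγ1 hτ0 hτ1 hK)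
    (hκ_of_hK γ ν τ K hγ1 hν0 hν1 hτ0 hτ1 hK) n ψ ψ
  have hsum : ∑ u, ψ u ^ 2 = 1 := by
    have h1 : ∀ u, ψ u ^ 2 = (ρ u u).re := fun u =>
      Real.sq_sqrt (psd_diag_re_nonneg ρ hρ.1 u)
    simp only [h1]
    have h2 : (ρ.trace).re = 1 := by rw [hρ.2]; simp
    rw [← h2, Matrix.trace, Complex.re_sum]
    rfl
  rw [hsum, mul_one, mul_one] at hE
  refine le_trans ?_ hE
  unfold En
  refine Finset.sum_le_sum fun x _ => Finset.sum_le_sum fun y _ => ?_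
  have hw : wW τ n x * wW τ n y = ∏ i, (pW τ (x i) * pW τ (y i)) := by
    unfold wW; rw [Finset.prod_mul_distrib]
  rw [hw]
  apply mul_le_mul_of_nonneg_left
  · rw [Complex.normSq_eq_norm_sq]
    exact pow_le_pow_left₀ (norm_nonneg _) (dominate γ ν hγ0 hγ1 hν0 hν1 n ρ hρ.1 x y) 2
  · exact Finset.prod_nonneg fun i _ =>
      mul_nonneg (pW_pos τ hτ0 hτ1 _).le (pW_pos τ hτ0 hτ1 _).le

include hγ0 hγ1 hν0 hν1 in
theorem tensorPow_isState (n : ℕ) (ρ : Matrix (Fin n → Fin 2) (Fin n → Fin 2) ℂ)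
    (hρ : IsState ρ) : IsState (tensorPow (gadc γ ν) n ρ) :=
  ⟨tensorPow_posSemidef γ ν hγ0 hγ1 hν0 hν1 n ρ hρ.1, by rw [tensorPow_trace, hρ.2]⟩

end params

/-- natural-log entropy of a state -/
theorem vnEntropy_of_psd {X : Type*} [Fintype X] [DecidableEq X] (A : Matrix X X ℂ)
    (hA : A.PosSemidef) :
    vnEntropy A = (∑ k, Real.negMulLog (hA.1.eigenvalues k)) / Real.log 2 := by
  unfold vnEntropy
  rw [dif_pos hA.1]

theorem mixture_isState {X : Type*} [Fintype X] {k : ℕ} (q : Fin k → ℝ)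
    (ω : Fin k → Matrix X X ℂ) (hq : ∀ a, 0 ≤ q a) (hq1 : ∑ a, q a = 1)
    (hω : ∀ a, IsState (ω a)) : IsState (∑ a, (q a : ℂ) • ω a) := by
  constructor
  · refine Matrix.posSemidef_sum _ fun a _ => ?_
    exact (hω a).1.smul (by exact_mod_cast hq a)
  · rw [Matrix.trace_sum]
    simp only [Matrix.trace_smul, (hω _).2, smul_eq_mul, mul_one]
    exact_mod_cast hq1


section final

variable (γ ν τ K : ℝ) (hγ0 : 0 ≤ γ) (hγ1 : γ ≤ 1) (hν0 : 0 ≤ ν) (hν1 : ν ≤ 1)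
  (hτ0 : 0 < τ) (hτ1 : τ < 1)
  (hK : ∀ q : ℝ, 0 ≤ q → q ≤ 1 →
    (1 - ((1 - γ) * q + γ * ν)) ^ 2 / (1 - τ) + ((1 - γ) * q + γ * ν) ^ 2 / τ
      + 2 * (1 - γ) * q * (1 - q) / Real.sqrt (τ * (1 - τ)) ≤ K)

include hγ0 hγ1 hν0 hν1 hτ0 hτ1 hK in
theorem holevo_le (n k : ℕ) (q : Fin k → ℝ)
    (ρ : Fin k → Matrix (Fin n → Fin 2) (Fin n → Fin 2) ℂ) (hens : IsEnsemble q ρ) :
    holevoQuantity (tensorPow (gadc γ ν) n) q ρ ≤ n * Real.logb 2 K := by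
  obtain ⟨hq, hq1, hρ⟩ := hens
  set ω : Fin k → Matrix (Fin n → Fin 2) (Fin n → Fin 2) ℂ :=
    fun a => tensorPow (gadc γ ν) n (ρ a) with hω_def
  have hω : ∀ a, IsState (ω a) := fun a => tensorPow_isState γ ν hγ0 hγ1 hν0 hν1 n (ρ a) (hρ a)
  have hbar : IsState (∑ a, (q a : ℂ) • ω a) := mixture_isState q ω hq hq1 hω
  set w := wW τ n with hw_def
  have hw : ∀ x, 0 < w x := wW_pos τ hτ0 hτ1 n
  have hlog2 : 0 < Real.log 2 := Real.log_pos (by norm_num)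
  unfold holevoQuantity
  rw [vnEntropy_of_psd _ hbar.1]
  have hS : ∀ a, vnEntropy (tensorPow (gadc γ ν) n (ρ a)) =
      (∑ j, Real.negMulLog ((hω a).1.1.eigenvalues j)) / Real.log 2 :=
    fun a => vnEntropy_of_psd _ (hω a).1
  simp only [hS]
  -- upper bound for the entropy of the average
  have hup := entropy_upper _ hbar.1 hbar.2 (fun x => ((w x) ^ 2)⁻¹)
    (fun x => by have := hw x; positivity) (sum_inv_wW_sq τ hτ0 hτ1 n).le
  have hlogs : ∀ x, Real.log (((w x) ^ 2)⁻¹) = -(2 * Real.log (w x)) := by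
    intro x
    rw [Real.log_inv, Real.log_pow]
    norm_num
  simp only [hlogs] at hup
  have hre : ∀ x, ((∑ a, (q a : ℂ) • ω a) x x).re = ∑ a, q a * (ω a x x).re := by
    intro x
    rw [Matrix.sum_apply, Complex.re_sum]
    refine Finset.sum_congr rfl fun a _ => ?_
    rw [Matrix.smul_apply, smul_eq_mul, Complex.re_ofReal_mul]
  simp only [hre] at hup
  -- lower bounds for the individual entropies
  have hlow : ∀ a, 2 * ∑ x, (ω a x x).re * Real.log (w x) -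
      ∑ j, Real.negMulLog ((hω a).1.1.eigenvalues j) ≤ n * Real.log K := by
    intro a
    have := entropy_lower _ (hω a).1 (hω a).2 w hw (K ^ n)
      (outputQ_le γ ν τ K hγ0 hγ1 hν0 hν1 hτ0 hτ1 hK n (ρ a) (hρ a))
    rwa [Real.log_pow] at this
  have hcomb : ∑ a, q a * (2 * ∑ x, (ω a x x).re * Real.log (w x) -
      ∑ j, Real.negMulLog ((hω a).1.1.eigenvalues j)) ≤ n * Real.log K := by
    calc ∑ a, q a * (2 * ∑ x, (ω a x x).re * Real.log (w x) -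
          ∑ j, Real.negMulLog ((hω a).1.1.eigenvalues j))
        ≤ ∑ a, q a * (n * Real.log K) :=
          Finset.sum_le_sum fun a _ => mul_le_mul_of_nonneg_left (hlow a) (hq a)
      _ = n * Real.log K := by rw [← Finset.sum_mul, hq1, one_mul]
  have hswap : ∑ x, (∑ a, q a * (ω a x x).re) * -(2 * Real.log (w x)) =
      - ∑ a, q a * (2 * ∑ x, (ω a x x).re * Real.log (w x)) := by
    simp only [Finset.sum_mul, Finset.mul_sum, ← Finset.sum_neg_distrib]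
    rw [Finset.sum_comm]
    refine Finset.sum_congr rfl fun a _ => Finset.sum_congr rfl fun x _ => ?_
    ring
  rw [hswap, neg_neg] at hup
  have hfin : ∑ j, Real.negMulLog (hbar.1.1.eigenvalues j) -
      ∑ a, q a * ∑ j, Real.negMulLog ((hω a).1.1.eigenvalues j) ≤ n * Real.log K := by
    have e : ∑ a, q a * (2 * ∑ x, (ω a x x).re * Real.log (w x) -
        ∑ j, Real.negMulLog ((hω a).1.1.eigenvalues j)) =
        ∑ a, q a * (2 * ∑ x, (ω a x x).re * Real.log (w x)) -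
        ∑ a, q a * ∑ j, Real.negMulLog ((hω a).1.1.eigenvalues j) := by
      rw [← Finset.sum_sub_distrib]
      refine Finset.sum_congr rfl fun a _ => ?_
      ring
    rw [e] at hcomb
    linarith
  have e2 : (∑ j, Real.negMulLog (hbar.1.1.eigenvalues j)) / Real.log 2 -
      ∑ a, q a * ((∑ j, Real.negMulLog ((hω a).1.1.eigenvalues j)) / Real.log 2) =
      (∑ j, Real.negMulLog (hbar.1.1.eigenvalues j) -
      ∑ a, q a * ∑ j, Real.negMulLog ((hω a).1.1.eigenvalues j)) / Real.log 2 := by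
    have e3 : ∑ a, q a * ((∑ j, Real.negMulLog ((hω a).1.1.eigenvalues j)) / Real.log 2) =
        (∑ a, q a * ∑ j, Real.negMulLog ((hω a).1.1.eigenvalues j)) / Real.log 2 := by
      rw [Finset.sum_div]
      refine Finset.sum_congr rfl fun a _ => ?_
      ring
    rw [e3, ← sub_div]
  rw [e2]
  unfold Real.logb
  rw [← mul_div_assoc]
  exact div_le_div_of_nonneg_right hfin hlog2.le

include hγ0 hγ1 hν0 hν1 hτ0 hτ1 hK in
theorem capacity_le : classicalCapacity (gadc γ ν) ≤ Real.logb 2 K := by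
  have hK1 : 1 ≤ K := one_le_K γ ν τ K hτ0 hτ1 hK
  have hlogb : 0 ≤ Real.logb 2 K := Real.logb_nonneg (by norm_num) hK1
  unfold classicalCapacity
  refine Real.sSup_le ?_ hlogb
  rintro r ⟨n, hn, rfl⟩
  have hn' : (0 : ℝ) < n := by exact_mod_cast hn
  rw [div_le_iff₀ hn', mul_comm]
  unfold holevoCapacity
  refine Real.sSup_le ?_ (mul_nonneg hn'.le hlogb)
  rintro r ⟨k, q, ρ, hens, rfl⟩
  exact holevo_le γ ν τ K hγ0 hγ1 hν0 hν1 hτ0 hτ1 hK n k q ρ hens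

end final

end Vale.Agent.P358
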