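import Mathlib

/-!
Scalar comparison lemma for entropies (step 0 of the additivity proof for amplitude damping):
if two finite weighted families of nonnegative numbers have the same total weight and the same
weighted sum, and the weighted sums of `log (s + ·)` are ordered for every `s > 0`, then the weighted
sums of `negMulLog` are ordered in the same way.
-/

namespace Vale.Agent.P358

open Real

/-- `u ≤ (s + u) * log (s + u) - (s + u) * log s` for `s > 0`, `u ≥ 0`. -/
theorem shift_lower {s u : ℝ} (hs : 0 < s) (hu : 0 ≤ u) :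
    (s + u) * Real.log s + u ≤ (s + u) * Real.log (s + u) := by
  have hsu : 0 < s + u := by linarith
  -- log (s / (s+u)) ≤ s/(s+u) - 1
  have h := Real.log_le_sub_one_of_pos (div_pos hs hsu)
  rw [Real.log_div hs.ne' hsu.ne'] at h
  have h2 : (s + u) * (Real.log s - Real.log (s + u)) ≤ (s + u) * (s / (s + u) - 1) :=
    mul_le_mul_of_nonneg_left h hsu.le
  have h3 : (s + u) * (s / (s + u) - 1) = -u := by
    field_simp
    ring
  rw [h3] at h2
  nlinarith

/-- `(s + u) * log (s + u) - (s + u) * log s ≤ u + u^2 / s` for `s > 0`, `u ≥ 0`. -/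
theorem shift_upper {s u : ℝ} (hs : 0 < s) (hu : 0 ≤ u) :
    (s + u) * Real.log (s + u) ≤ (s + u) * Real.log s + u + u ^ 2 / s := by
  have hsu : 0 < s + u := by linarith
  have h := Real.log_le_sub_one_of_pos (div_pos hsu hs)
  rw [Real.log_div hsu.ne' hs.ne'] at h
  have h2 : (s + u) * (Real.log (s + u) - Real.log s) ≤ (s + u) * ((s + u) / s - 1) :=
    mul_le_mul_of_nonneg_left h hsu.le
  have h3 : (s + u) * ((s + u) / s - 1) = u + u ^ 2 / s := by
    field_simp
    ring
  rw [h3] at h2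
  nlinarith

theorem hasDerivAt_shift_mul_log {s u : ℝ} (h : s + u ≠ 0) :
    HasDerivAt (fun t : ℝ => (t + u) * Real.log (t + u)) (Real.log (s + u) + 1) s := by
  have h1 : HasDerivAt (fun t : ℝ => t + u) 1 s := (hasDerivAt_id s).add_const u
  have h2 := (Real.hasDerivAt_mul_log h).comp s h1
  rw [mul_one] at h2
  exact h2

theorem continuous_shift_mul_log (u : ℝ) :
    Continuous (fun t : ℝ => (t + u) * Real.log (t + u)) :=
  Real.continuous_mul_log.comp (continuous_id.add continuous_const)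

section

variable {ι κ : Type*} [Fintype ι] [Fintype κ]

/-- the auxiliary function -/
noncomputable def etaPsi (w u : ι → ℝ) (w' v : κ → ℝ) (s : ℝ) : ℝ :=
  ∑ i, w i * ((s + u i) * Real.log (s + u i)) - ∑ j, w' j * ((s + v j) * Real.log (s + v j))

theorem etaPsi_continuous (w u : ι → ℝ) (w' v : κ → ℝ) : Continuous (etaPsi w u w' v) := by
  unfold etaPsi
  refine Continuous.sub ?_ ?_
  · exact continuous_finsetSum _ fun i _ => continuous_const.mul (continuous_shift_mul_log (u i))
  · exact continuous_finsetSum _ fun j _ => continuous_const.mul (continuous_shift_mul_log (v j))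

theorem etaPsi_hasDerivAt (w u : ι → ℝ) (w' v : κ → ℝ) (hu : ∀ i, 0 ≤ u i) (hv : ∀ j, 0 ≤ v j)
    {s : ℝ} (hs : 0 < s) :
    HasDerivAt (etaPsi w u w' v)
      (∑ i, w i * (Real.log (s + u i) + 1) - ∑ j, w' j * (Real.log (s + v j) + 1)) s := by
  unfold etaPsi
  refine HasDerivAt.sub ?_ ?_
  · refine HasDerivAt.fun_sum fun i _ => ?_
    exact (hasDerivAt_shift_mul_log (by have := hu i; linarith)).const_mul (w i)
  · refine HasDerivAt.fun_sum fun j _ => ?_
    exact (hasDerivAt_shift_mul_log (by have := hv j; linarith)).const_mul (w' j)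

theorem etaPsi_monotoneOn (w u : ι → ℝ) (w' v : κ → ℝ) (hu : ∀ i, 0 ≤ u i) (hv : ∀ j, 0 ≤ v j)
    (h0 : ∑ i, w i = ∑ j, w' j)
    (hlog : ∀ s, 0 < s → ∑ j, w' j * Real.log (s + v j) ≤ ∑ i, w i * Real.log (s + u i)) :
    MonotoneOn (etaPsi w u w' v) (Set.Ici 0) := by
  refine monotoneOn_of_deriv_nonneg (convex_Ici 0) (etaPsi_continuous w u w' v).continuousOn ?_ ?_
  · intro s hs
    rw [interior_Ici] at hs
    exact (etaPsi_hasDerivAt w u w' v hu hv hs).differentiableAt.differentiableWithinAt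
  · intro s hs
    rw [interior_Ici] at hs
    rw [(etaPsi_hasDerivAt w u w' v hu hv hs).deriv]
    have h := hlog s hs
    simp only [mul_add, mul_one, Finset.sum_add_distrib]
    linarith

theorem etaPsi_le (w u : ι → ℝ) (w' v : κ → ℝ) (hw : ∀ i, 0 ≤ w i) (hw' : ∀ j, 0 ≤ w' j)
    (hu : ∀ i, 0 ≤ u i) (hv : ∀ j, 0 ≤ v j)
    (h0 : ∑ i, w i = ∑ j, w' j) (h1 : ∑ i, w i * u i = ∑ j, w' j * v j) {s : ℝ} (hs : 0 < s) :
    etaPsi w u w' v s ≤ (∑ i, w i * u i ^ 2) / s := by
  unfold etaPsi
  have hA : ∑ i, w i * ((s + u i) * Real.log (s + u i))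
      ≤ ∑ i, w i * ((s + u i) * Real.log s + u i + u i ^ 2 / s) :=
    Finset.sum_le_sum fun i _ => mul_le_mul_of_nonneg_left (shift_upper hs (hu i)) (hw i)
  have hB : ∑ j, w' j * ((s + v j) * Real.log s + v j)
      ≤ ∑ j, w' j * ((s + v j) * Real.log (s + v j)) :=
    Finset.sum_le_sum fun j _ => mul_le_mul_of_nonneg_left (shift_lower hs (hv j)) (hw' j)
  have eA : ∑ i, w i * ((s + u i) * Real.log s + u i + u i ^ 2 / s)
      = (s * ∑ i, w i) * Real.log s + (∑ i, w i * u i) * Real.log s + ∑ i, w i * u i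
        + (∑ i, w i * u i ^ 2) / s := by
    rw [Finset.mul_sum, Finset.sum_mul, Finset.sum_mul, Finset.sum_div, ← Finset.sum_add_distrib,
      ← Finset.sum_add_distrib, ← Finset.sum_add_distrib]
    refine Finset.sum_congr rfl fun i _ => ?_
    ring
  have eB : ∑ j, w' j * ((s + v j) * Real.log s + v j)
      = (s * ∑ j, w' j) * Real.log s + (∑ j, w' j * v j) * Real.log s + ∑ j, w' j * v j := by
    rw [Finset.mul_sum, Finset.sum_mul, Finset.sum_mul, ← Finset.sum_add_distrib,
      ← Finset.sum_add_distrib]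
    refine Finset.sum_congr rfl fun j _ => ?_
    ring
  rw [eA] at hA
  rw [eB] at hB
  rw [h0, h1] at hA
  linarith

/-- **Scalar comparison lemma.** -/
theorem eta_sum_le (w u : ι → ℝ) (w' v : κ → ℝ) (hw : ∀ i, 0 ≤ w i) (hw' : ∀ j, 0 ≤ w' j)
    (hu : ∀ i, 0 ≤ u i) (hv : ∀ j, 0 ≤ v j)
    (h0 : ∑ i, w i = ∑ j, w' j) (h1 : ∑ i, w i * u i = ∑ j, w' j * v j)
    (hlog : ∀ s, 0 < s → ∑ j, w' j * Real.log (s + v j) ≤ ∑ i, w i * Real.log (s + u i)) :
    ∑ j, w' j * Real.negMulLog (v j) ≤ ∑ i, w i * Real.negMulLog (u i) := by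
  have hmono := etaPsi_monotoneOn w u w' v hu hv h0 hlog
  set C := ∑ i, w i * u i ^ 2 with hC
  have hC0 : 0 ≤ C := Finset.sum_nonneg fun i _ => mul_nonneg (hw i) (sq_nonneg _)
  have hle : ∀ s, 0 < s → etaPsi w u w' v 0 ≤ C / s := by
    intro s hs
    exact le_trans (hmono (Set.mem_Ici.mpr le_rfl) (Set.mem_Ici.mpr hs.le) hs.le)
      (etaPsi_le w u w' v hw hw' hu hv h0 h1 hs)
  have hzero : etaPsi w u w' v 0 ≤ 0 := by
    by_contra hcon
    rw [not_le] at hcon
    set P := etaPsi w u w' v 0 with hP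
    have hs : 0 < (C + 1) / P * 2 := by positivity
    have h := hle _ hs
    have h2 : C / ((C + 1) / P * 2) = P * (C / (2 * (C + 1))) := by
      field_simp
    rw [h2] at h
    have h3 : C / (2 * (C + 1)) < 1 := by
      rw [div_lt_one (by positivity)]
      linarith
    nlinarith
  unfold etaPsi at hzero
  simp only [zero_add] at hzero
  have e1 : ∑ i, w i * Real.negMulLog (u i) = -∑ i, w i * (u i * Real.log (u i)) := by
    rw [← Finset.sum_neg_distrib]
    refine Finset.sum_congr rfl fun i _ => ?_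
    unfold Real.negMulLog
    ring
  have e2 : ∑ j, w' j * Real.negMulLog (v j) = -∑ j, w' j * (v j * Real.log (v j)) := by
    rw [← Finset.sum_neg_distrib]
    refine Finset.sum_congr rfl fun j _ => ?_
    unfold Real.negMulLog
    ring
  rw [e1, e2]
  linarith

/-- Unweighted product form: same number of terms, same sum, and `∏ (s + v j) ≤ ∏ (s + u i)` for
every `s > 0`. -/
theorem eta_sum_le_of_prod (u : ι → ℝ) (v : κ → ℝ) (hu : ∀ i, 0 ≤ u i) (hv : ∀ j, 0 ≤ v j)
    (h0 : Fintype.card ι = Fintype.card κ) (h1 : ∑ i, u i = ∑ j, v j)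
    (hprod : ∀ s, 0 < s → ∏ j, (s + v j) ≤ ∏ i, (s + u i)) :
    ∑ j, Real.negMulLog (v j) ≤ ∑ i, Real.negMulLog (u i) := by
  have h := eta_sum_le (fun _ : ι => (1 : ℝ)) u (fun _ : κ => (1 : ℝ)) v
    (fun _ => zero_le_one) (fun _ => zero_le_one) hu hv
    (by simp [h0]) (by simpa using h1)
    (by
      intro s hs
      simp only [one_mul]
      rw [← Real.log_prod (fun j _ => by have := hv j; positivity),
        ← Real.log_prod (fun i _ => by have := hu i; positivity)]
      exact Real.log_le_log (Finset.prod_pos fun j _ => by have := hv j; positivity) (hprod s hs))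
  simpa using h

end

end Vale.Agent.P358
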