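import Vale.Agent.P358.Main

namespace Vale.Agent.P358

open Finset Matrix
open scoped ComplexOrder

section closed

variable (γ ν : ℝ) (hγ0 : 0 < γ) (hγ1 : γ < 1) (hν0 : 0 ≤ ν) (hν1 : ν ≤ 1)

include hγ0 hγ1 hν0 hν1 in
theorem AB_facts :
    0 < 1 - γ * ν ∧ 0 < 1 - γ * (1 - ν) ∧ (1 - γ) ≤ (1 - γ * ν) * (1 - γ * (1 - ν)) := by
  have h1 : γ * ν ≤ γ := by nlinarith
  have h2 : γ * (1 - ν) ≤ γ := by nlinarith
  refine ⟨by linarith, by linarith, ?_⟩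
  have : 0 ≤ γ ^ 2 * (ν * (1 - ν)) :=
    mul_nonneg (sq_nonneg _) (mul_nonneg hν0 (by linarith))
  nlinarith

include hγ0 hγ1 hν0 hν1 in
theorem r_facts :
    Real.sqrt (1 - γ) ≤ Real.sqrt ((1 - γ * ν) * (1 - γ * (1 - ν))) ∧
    0 < 2 * Real.sqrt ((1 - γ * ν) * (1 - γ * (1 - ν))) - (1 - γ) * (2 - γ) := by
  obtain ⟨hA, hB, hAB⟩ := AB_facts γ ν hγ0 hγ1 hν0 hν1
  have h1 : Real.sqrt (1 - γ) ≤ Real.sqrt ((1 - γ * ν) * (1 - γ * (1 - ν))) :=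
    Real.sqrt_le_sqrt hAB
  refine ⟨h1, ?_⟩
  set x := Real.sqrt (1 - γ) with hx
  have hx0 : 0 < x := Real.sqrt_pos.2 (by linarith)
  have hx2 : x ^ 2 = 1 - γ := Real.sq_sqrt (by linarith)
  have hx1 : x < 1 := by
    rw [hx, Real.sqrt_lt' (by norm_num)]; linarith
  have e : (1 - γ) * (2 - γ) = x ^ 2 * (1 + x ^ 2) := by rw [hx2]; ring
  rw [e]
  have : x ^ 2 * (1 + x ^ 2) < 2 * x := by nlinarith [mul_pos hx0 hx0, mul_pos hx0 (sub_pos.2 hx1)]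
  linarith

include hγ0 hγ1 hν0 hν1 in
theorem closed_hK (q : ℝ) :
    (1 - ((1 - γ) * q + γ * ν)) ^ 2 / (1 - (1 - γ * (1 - ν)) / (2 - γ))
      + ((1 - γ) * q + γ * ν) ^ 2 / ((1 - γ * (1 - ν)) / (2 - γ))
      + 2 * (1 - γ) * q * (1 - q) /
        Real.sqrt ((1 - γ * (1 - ν)) / (2 - γ) * (1 - (1 - γ * (1 - ν)) / (2 - γ))) ≤
    2 * γ * (2 - γ) * Real.sqrt ((1 - γ * ν) * (1 - γ * (1 - ν))) /
      (2 * Real.sqrt ((1 - γ * ν) * (1 - γ * (1 - ν))) - (1 - γ) * (2 - γ)) := by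
  obtain ⟨hA, hB, hAB⟩ := AB_facts γ ν hγ0 hγ1 hν0 hν1
  obtain ⟨hrx, hD⟩ := r_facts γ ν hγ0 hγ1 hν0 hν1
  set A := 1 - γ * ν with hAdef
  set B := 1 - γ * (1 - ν) with hBdef
  set r := Real.sqrt (A * B) with hr
  have hN : (0 : ℝ) < 2 - γ := by linarith
  have hr0 : 0 < r := Real.sqrt_pos.2 (mul_pos hA hB)
  have hr2 : r ^ 2 = A * B := Real.sq_sqrt (mul_pos hA hB).le
  have hsum : A + B = 2 - γ := by rw [hAdef, hBdef]; ring
  have h1τ : 1 - B / (2 - γ) = A / (2 - γ) := by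
    rw [← hsum]; field_simp; ring
  have hsq : Real.sqrt (B / (2 - γ) * (A / (2 - γ))) = r / (2 - γ) := by
    have : B / (2 - γ) * (A / (2 - γ)) = (r / (2 - γ)) ^ 2 := by
      rw [div_pow, hr2]; field_simp
    rw [this, Real.sqrt_sq (by positivity)]
  rw [h1τ, hsq]
  set η := 1 - γ with hη
  have e1 : 1 - (η * q + γ * ν) = A - η * q := by rw [hAdef]; ring
  have e2 : η * q + γ * ν = B - η * (1 - q) := by rw [hBdef, hη]; ring
  rw [e1, e2]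
  set D := 2 * r - η * (2 - γ) with hDdef
  -- the key inequality
  have key : (η * (B * q ^ 2 + A * (1 - q) ^ 2) + 2 * r * (q * (1 - q))) * D ≤
      (1 - η ^ 2) * r ^ 2 := by
    have hid : (1 - η ^ 2) * r ^ 2 -
        (η * (B * q ^ 2 + A * (1 - q) ^ 2) + 2 * r * (q * (1 - q))) * D =
        (D * q - r + η * A) ^ 2 := by
      have hB' : B = 1 + η - A := by rw [hη]; linarith
      have hγ' : γ = 1 - η := by rw [hη]; ring
      rw [hDdef, hγ']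
      rw [hB'] at hr2
      rw [hB']
      linear_combination (-η ^ 2) * hr2
    nlinarith [sq_nonneg (D * q - r + η * A)]
  have hη0 : 0 < η := by rw [hη]; linarith
  have t1 : (A - η * q) ^ 2 / (A / (2 - γ)) =
      (2 - γ) * (A - 2 * η * q) + (2 - γ) * η * (η * (B * q ^ 2) / r ^ 2) := by
    rw [hr2]; field_simp; ring
  have t2 : (B - η * (1 - q)) ^ 2 / (B / (2 - γ)) =
      (2 - γ) * (B - 2 * η * (1 - q)) + (2 - γ) * η * (η * (A * (1 - q) ^ 2) / r ^ 2) := by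
    rw [hr2]; field_simp; ring
  have t3 : 2 * η * q * (1 - q) / (r / (2 - γ)) =
      (2 - γ) * η * (2 * r * (q * (1 - q)) / r ^ 2) := by
    field_simp
  have hh : (η * (B * q ^ 2 + A * (1 - q) ^ 2) + 2 * r * (q * (1 - q))) / r ^ 2 ≤
      (1 - η ^ 2) / D := by
    rw [div_le_div_iff₀ (by positivity) hD]
    exact key
  have hsum2 : (A - η * q) ^ 2 / (A / (2 - γ)) + (B - η * (1 - q)) ^ 2 / (B / (2 - γ)) +
      2 * η * q * (1 - q) / (r / (2 - γ)) =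
      (2 - γ) * γ + (2 - γ) * η *
        ((η * (B * q ^ 2 + A * (1 - q) ^ 2) + 2 * r * (q * (1 - q))) / r ^ 2) := by
    rw [t1, t2, t3]
    have : A + B - 2 * η = γ := by rw [hsum, hη]; ring
    have e : (2 - γ) * (A - 2 * η * q) + (2 - γ) * (B - 2 * η * (1 - q)) = (2 - γ) * γ := by
      rw [← this]; ring
    rw [← e]
    ring
  rw [hsum2]
  have hfin : (2 - γ) * γ + (2 - γ) * η * ((1 - η ^ 2) / D) = 2 * γ * (2 - γ) * r / D := by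
    have hγ' : γ = 1 - η := by rw [hη]; ring
    field_simp
    rw [hDdef, hγ']
    ring
  rw [← hfin]
  have := mul_le_mul_of_nonneg_left hh (mul_nonneg hN.le hη0.le)
  linarith


include hγ0 hγ1 hν0 hν1 in
theorem tau_mem : 0 < (1 - γ * (1 - ν)) / (2 - γ) ∧ (1 - γ * (1 - ν)) / (2 - γ) < 1 := by
  obtain ⟨hA, hB, _⟩ := AB_facts γ ν hγ0 hγ1 hν0 hν1
  have hN : (0 : ℝ) < 2 - γ := by linarith
  refine ⟨div_pos hB hN, ?_⟩
  rw [div_lt_one hN]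
  nlinarith

include hγ0 hγ1 hν0 hν1 in
theorem closed_lt :
    0 < 2 * γ * (2 - γ) * Real.sqrt ((1 - γ * ν) * (1 - γ * (1 - ν))) /
      (2 * Real.sqrt ((1 - γ * ν) * (1 - γ * (1 - ν))) - (1 - γ) * (2 - γ)) ∧
    2 * γ * (2 - γ) * Real.sqrt ((1 - γ * ν) * (1 - γ * (1 - ν))) /
      (2 * Real.sqrt ((1 - γ * ν) * (1 - γ * (1 - ν))) - (1 - γ) * (2 - γ)) <
      1 + Real.sqrt (1 - γ) := by
  obtain ⟨hA, hB, hAB⟩ := AB_facts γ ν hγ0 hγ1 hν0 hν1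
  obtain ⟨hrx, hD⟩ := r_facts γ ν hγ0 hγ1 hν0 hν1
  set r := Real.sqrt ((1 - γ * ν) * (1 - γ * (1 - ν))) with hr
  set x := Real.sqrt (1 - γ) with hx
  have hx0 : 0 < x := Real.sqrt_pos.2 (by linarith)
  have hx2 : x ^ 2 = 1 - γ := Real.sq_sqrt (by linarith)
  have hx1 : x < 1 := by
    rw [hx, Real.sqrt_lt' (by norm_num)]; linarith
  have hr0 : 0 < r := lt_of_lt_of_le hx0 hrx
  have hN : (0 : ℝ) < 2 - γ := by linarith
  refine ⟨by positivity, ?_⟩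
  rw [div_lt_iff₀ hD]
  have hγ' : γ = 1 - x ^ 2 := by rw [hx2]; ring
  rw [hγ']
  have h1 : 0 < x ^ 2 * ((1 - x) ^ 2 * (1 + x)) := by
    have : 0 < 1 - x := by linarith
    positivity
  have h2 : 0 ≤ (r - x) * (2 * x * (1 + x ^ 3)) :=
    mul_nonneg (sub_nonneg.2 hrx) (by positivity)
  nlinarith

include hγ0 hγ1 hν0 hν1 in
theorem closed_holevo_le (n k : ℕ) (q : Fin k → ℝ)
    (ρ : Fin k → Matrix (Fin n → Fin 2) (Fin n → Fin 2) ℂ) (hens : IsEnsemble q ρ) :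
    holevoQuantity (tensorPow (gadc γ ν) n) q ρ ≤ n * Real.logb 2
      (2 * γ * (2 - γ) * Real.sqrt ((1 - γ * ν) * (1 - γ * (1 - ν))) /
      (2 * Real.sqrt ((1 - γ * ν) * (1 - γ * (1 - ν))) - (1 - γ) * (2 - γ))) := by
  obtain ⟨h0, h1⟩ := tau_mem γ ν hγ0 hγ1 hν0 hν1
  exact holevo_le γ ν _ _ hγ0.le hγ1.le hν0 hν1 h0 h1
    (fun q _ _ => closed_hK γ ν hγ0 hγ1 hν0 hν1 q) n k q ρ hens

include hγ0 hγ1 hν0 hν1 in
theorem closed_capacity_le :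
    classicalCapacity (gadc γ ν) ≤ Real.logb 2
      (2 * γ * (2 - γ) * Real.sqrt ((1 - γ * ν) * (1 - γ * (1 - ν))) /
      (2 * Real.sqrt ((1 - γ * ν) * (1 - γ * (1 - ν))) - (1 - γ) * (2 - γ))) := by
  obtain ⟨h0, h1⟩ := tau_mem γ ν hγ0 hγ1 hν0 hν1
  exact capacity_le γ ν _ _ hγ0.le hγ1.le hν0 hν1 h0 h1
    (fun q _ _ => closed_hK γ ν hγ0 hγ1 hν0 hν1 q)

include hγ0 hγ1 hν0 hν1 in
theorem closed_logb_lt :
    Real.logb 2
      (2 * γ * (2 - γ) * Real.sqrt ((1 - γ * ν) * (1 - γ * (1 - ν))) /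
      (2 * Real.sqrt ((1 - γ * ν) * (1 - γ * (1 - ν))) - (1 - γ) * (2 - γ))) <
      Real.logb 2 (1 + Real.sqrt (1 - γ)) := by
  obtain ⟨h0, h1⟩ := closed_lt γ ν hγ0 hγ1 hν0 hν1
  exact Real.logb_lt_logb (by norm_num) h0 h1

end closed

end Vale.Agent.P358
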