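import Mathlib

namespace Vale.Agent.P358

open Matrix
open scoped ComplexOrder

/-- Density matrices on a finite index set: positive semidefinite with trace one. -/
def IsState {X : Type*} [Fintype X] (ρ : Matrix X X ℂ) : Prop :=
  ρ.PosSemidef ∧ ρ.trace = 1

/-- The von Neumann entropy in bits, `- ∑ λ log₂ λ` over the eigenvalues `λ` of a Hermitian matrix
(`Real.negMulLog x = - x * Real.log x`). -/
noncomputable def vnEntropy {X : Type*} [Fintype X] [DecidableEq X] (ρ : Matrix X X ℂ) : ℝ :=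
  if h : ρ.IsHermitian then (∑ k, Real.negMulLog (h.eigenvalues k)) / Real.log 2 else 0

/-- The generalized amplitude damping channel with damping `γ` and stationary excited-state
population `ν`, as a map on all complex `2 × 2` matrices. Index `0` carries the population `1 - q`
and index `1` the population `q`. -/
noncomputable def gadc (γ ν : ℝ) (ρ : Matrix (Fin 2) (Fin 2) ℂ) : Matrix (Fin 2) (Fin 2) ℂ :=
  !![((1 - γ * ν : ℝ) : ℂ) * ρ 0 0 + ((γ * (1 - ν) : ℝ) : ℂ) * ρ 1 1,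
      ((Real.sqrt (1 - γ) : ℝ) : ℂ) * ρ 0 1;
     ((Real.sqrt (1 - γ) : ℝ) : ℂ) * ρ 1 0,
      ((γ * ν : ℝ) : ℂ) * ρ 0 0 + ((1 - γ * (1 - ν) : ℝ) : ℂ) * ρ 1 1]

/-- The `n`-fold tensor power of a linear map `Φ` on `2 × 2` matrices, acting on matrices indexed by
bit strings of length `n`: it sends the matrix unit `E_{u v}` to the tensor product of the
`Φ (E_{u_i v_i})`. -/
noncomputable def tensorPow (Φ : Matrix (Fin 2) (Fin 2) ℂ → Matrix (Fin 2) (Fin 2) ℂ) (n : ℕ)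
    (ρ : Matrix (Fin n → Fin 2) (Fin n → Fin 2) ℂ) : Matrix (Fin n → Fin 2) (Fin n → Fin 2) ℂ :=
  fun x y => ∑ u, ∑ v, (∏ i, Φ (Matrix.single (u i) (v i) 1) (x i) (y i)) * ρ u v

/-- A finite ensemble: probabilities `q a` and input states `ρ a`. -/
def IsEnsemble {X : Type*} [Fintype X] {k : ℕ} (q : Fin k → ℝ) (ρ : Fin k → Matrix X X ℂ) : Prop :=
  (∀ a, 0 ≤ q a) ∧ ∑ a, q a = 1 ∧ ∀ a, IsState (ρ a)

/-- The Holevo quantity `S (∑ q_a Φ ρ_a) - ∑ q_a S (Φ ρ_a)` of an ensemble. -/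
noncomputable def holevoQuantity {X Y : Type*} [Fintype Y] [DecidableEq Y]
    (Φ : Matrix X X ℂ → Matrix Y Y ℂ) {k : ℕ} (q : Fin k → ℝ) (ρ : Fin k → Matrix X X ℂ) : ℝ :=
  vnEntropy (∑ a, (q a : ℂ) • Φ (ρ a)) - ∑ a, q a * vnEntropy (Φ (ρ a))

/-- The Holevo capacity: supremum of the Holevo quantity over all finite ensembles. -/
noncomputable def holevoCapacity {X Y : Type*} [Fintype X] [Fintype Y] [DecidableEq Y]
    (Φ : Matrix X X ℂ → Matrix Y Y ℂ) : ℝ :=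
  sSup {r : ℝ | ∃ (k : ℕ) (q : Fin k → ℝ) (ρ : Fin k → Matrix X X ℂ),
    IsEnsemble q ρ ∧ r = holevoQuantity Φ q ρ}

/-- The classical capacity `sup_{n ≥ 1} χ (Φ^{⊗ n}) / n` of a qubit channel. -/
noncomputable def classicalCapacity
    (Φ : Matrix (Fin 2) (Fin 2) ℂ → Matrix (Fin 2) (Fin 2) ℂ) : ℝ :=
  sSup {r : ℝ | ∃ n : ℕ, 1 ≤ n ∧ r = holevoCapacity (tensorPow Φ n) / n}

end Vale.Agent.P358
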