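import Mathlib

/-!
P358: the pinching determinant inequality

For positive definite `P Q` and a real diagonal matrix `S = diag σ`:
`∏ (P_kk Q_kk + σ_k^2) * det P * det Q ≤ ∏ (P_kk Q_kk) * det [[P, iS],[iS, Q]]`.
Proof: peel one coordinate (Schur complement, Cauchy-Schwarz), induction on the size.
-/

open Matrix Finset
open scoped ComplexOrder

namespace P358

/-- a quadratic with nonpositive discriminant is nonnegative -/
theorem quad_nonneg {a b c : ℝ} (ha : 0 ≤ a) (hc : 0 ≤ c) (hd : b ^ 2 ≤ a * c) (s : ℝ) :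
    0 ≤ a * s ^ 2 + 2 * b * s + c := by
  rcases ha.eq_or_lt with h0 | hpos
  · subst h0
    have hb : b = 0 := by
      have : b ^ 2 ≤ 0 := by simpa using hd
      nlinarith [sq_nonneg b]
    subst hb
    simpa using hc
  · have h1 : 0 ≤ a * (a * s ^ 2 + 2 * b * s + c) := by
      have : a * (a * s ^ 2 + 2 * b * s + c) = (a * s + b) ^ 2 + (a * c - b ^ 2) := by ring
      rw [this]
      have := sq_nonneg (a * s + b)
      linarith
    exact nonneg_of_mul_nonneg_right h1 hpos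

/-- the scalar inequality of the peeling step -/
theorem peel_scalar {p q u v δ ν s wr wi : ℝ} (hu : 0 ≤ u) (hup : u < p)
    (hvq : v < q) (hδ : 0 ≤ δ) (hν : 0 ≤ ν) (hνv : ν ≤ v)
    (hw : wr ^ 2 + wi ^ 2 ≤ δ * ν) :
    (p * q + s ^ 2) * ((p - u) * (q - v)) ≤
      (p * q) * ((p - u + δ) * (q - ν) + ((s + wr) ^ 2 + wi ^ 2)) := by
  have hp : 0 < p := lt_of_le_of_lt hu hup
  have hv : 0 ≤ v := le_trans hν hνv
  have hq : 0 < q := lt_of_le_of_lt hv hvq
  set U := p - u with hU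
  set V := q - v with hV
  have hU0 : 0 < U := by simp only [hU]; linarith
  have hV0 : 0 < V := by simp only [hV]; linarith
  set e := v - ν with he
  have he0 : 0 ≤ e := by simp only [he]; linarith
  have hpq : 0 < p * q := mul_pos hp hq
  have hqν : q - ν = V + e := by simp only [hV, he]; ring
  rw [hqν]
  have ha : 0 ≤ p * q - U * V := by
    have h1 : U ≤ p := by simp only [hU]; linarith
    have h2 : V ≤ q := by simp only [hV]; linarith
    nlinarith [mul_le_mul h1 h2 hV0.le hp.le]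
  have hlow : U * ν ≤ p * q - U * V := by
    -- p q - U V ≥ U q - U V = U v ≥ U ν
    have h1 : U ≤ p := by simp only [hU]; linarith
    have h2 : U * q ≤ p * q := mul_le_mul_of_nonneg_right h1 hq.le
    have h3 : U * ν ≤ U * v := mul_le_mul_of_nonneg_left hνv hU0.le
    have h4 : U * q - U * V = U * v := by simp only [hV]; ring
    linarith
  set c0 := U * e + V * δ + δ * e + (wr ^ 2 + wi ^ 2) with hc0
  have hc00 : 0 ≤ c0 := by
    simp only [hc0]
    have := mul_nonneg hU0.le he0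
    have := mul_nonneg hV0.le hδ
    have := mul_nonneg hδ he0
    have := sq_nonneg wr
    have := sq_nonneg wi
    linarith
  have key := quad_nonneg (a := p * q - U * V) (b := p * q * wr) (c := p * q * c0) ha
    (mul_nonneg hpq.le hc00) ?_ s
  · have : (p * q) * ((U + δ) * (V + e) + ((s + wr) ^ 2 + wi ^ 2)) - (p * q + s ^ 2) * (U * V)
        = (p * q - U * V) * s ^ 2 + 2 * (p * q * wr) * s + p * q * c0 := by
      simp only [hc0]; ring
    linarith
  · -- (pq wr)^2 ≤ (pq - UV) pq c0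
    have h1 : p * q * wr ^ 2 ≤ (p * q - U * V) * c0 := by
      -- UV wr^2 ≤ UV |w|^2 ≤ UV δ ν ≤ (pq-UV) V δ
      have h2 : U * V * (wr ^ 2 + wi ^ 2) ≤ (p * q - U * V) * (V * δ) := by
        have h3 : U * V * (wr ^ 2 + wi ^ 2) ≤ U * V * (δ * ν) :=
          mul_le_mul_of_nonneg_left hw (mul_nonneg hU0.le hV0.le)
        have h4 : (U * ν) * (V * δ) ≤ (p * q - U * V) * (V * δ) :=
          mul_le_mul_of_nonneg_right hlow (mul_nonneg hV0.le hδ)
        nlinarith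
      have h5 : 0 ≤ (p * q - U * V) * (U * e + δ * e) :=
        mul_nonneg ha (by
          have := mul_nonneg hU0.le he0
          have := mul_nonneg hδ he0
          linarith)
      have h6 : 0 ≤ p * q * wi ^ 2 := mul_nonneg hpq.le (sq_nonneg wi)
      have h7 : (p * q - U * V) * c0 = (p * q - U * V) * (U * e + δ * e)
          + (p * q - U * V) * (V * δ) + (p * q - U * V) * (wr ^ 2 + wi ^ 2) := by
        simp only [hc0]; ring
      nlinarith
    have : (p * q * wr) ^ 2 = p * q * (p * q * wr ^ 2) := by ring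
    rw [this]
    have := mul_le_mul_of_nonneg_left h1 hpq.le
    nlinarith

theorem det_fromBlocks_one_one (a b c d : Matrix (Fin 1) (Fin 1) ℂ) :
    (fromBlocks a b c d).det = a 0 0 * d 0 0 - b 0 0 * c 0 0 := by
  rw [← det_submatrix_equiv_self (finSumFinEquiv (m := 1) (n := 1)).symm, det_fin_two]
  rfl

theorem inv_sub_inv_posSemidef {m : Type*} [Fintype m] [DecidableEq m]
    {Q K : Matrix m m ℂ} (hQ : Q.PosDef) (hK : K.PosSemidef) :
    (Q⁻¹ - (Q + K)⁻¹).PosSemidef := by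
  have hQK : (Q + K).PosDef := hQ.add_posSemidef hK
  let _ := hQK.isUnit.invertible
  let _ := hQ.inv.isUnit.invertible
  have h1 : (fromBlocks (Q + K) 1 (1 : Matrix m m ℂ)ᴴ Q⁻¹).PosSemidef := by
    rw [PosDef.fromBlocks₂₂ _ _ hQ.inv]
    have : Q⁻¹⁻¹ = Q := by
      exact Matrix.nonsing_inv_nonsing_inv Q ((Matrix.isUnit_iff_isUnit_det _).1 hQ.isUnit)
    simpa [this] using hK
  rw [PosDef.fromBlocks₁₁ _ _ hQK] at h1
  simpa using h1

theorem cs_posSemidef {m : Type*} [Fintype m] [DecidableEq m]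
    {Θ : Matrix m m ℂ} (hΘ : Θ.PosSemidef) (W Y : Matrix m (Fin 1) ℂ) :
    0 ≤ (Wᴴ * Θ * W) 0 0 * (Yᴴ * Θ * Y) 0 0 - (Wᴴ * Θ * Y) 0 0 * (Yᴴ * Θ * W) 0 0 := by
  have h := (hΘ.conjTranspose_mul_mul_same (fromCols W Y)).det_nonneg
  rw [conjTranspose_fromCols_eq_fromRows_conjTranspose, fromRows_mul, fromRows_mul_fromCols,
    det_fromBlocks_one_one] at h
  exact h

theorem det_reorder {m l : Type*} [Fintype m] [DecidableEq m] [Fintype l] [DecidableEq l]
    (P1 Q1 S1 : Matrix m m ℂ) (X Y : Matrix m l ℂ) (X' Y' : Matrix l m ℂ)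
    (p q s : Matrix l l ℂ) :
    (fromBlocks (fromBlocks P1 X X' p) (Complex.I • fromBlocks S1 0 0 s)
      (Complex.I • fromBlocks S1 0 0 s) (fromBlocks Q1 Y Y' q)).det =
    (fromBlocks (fromBlocks P1 (Complex.I • S1) (Complex.I • S1) Q1) (fromBlocks X 0 0 Y)
      (fromBlocks X' 0 0 Y') (fromBlocks p (Complex.I • s) (Complex.I • s) q)).det := by
  rw [← det_submatrix_equiv_self (Equiv.sumSumSumComm m l m l).symm]
  congr 1
  ext i j
  rcases i with (i | i) | (i | i) <;> rcases j with (j | j) | (j | j) <;>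
    simp [Equiv.sumSumSumComm]

theorem schur_I {m : Type*} [Fintype m] [DecidableEq m] (P1 Q1 S1 : Matrix m m ℂ) :
    Q1 - (Complex.I • S1) * P1⁻¹ * (Complex.I • S1) = Q1 + S1 * P1⁻¹ * S1 := by
  rw [Matrix.smul_mul, Matrix.smul_mul, Matrix.mul_smul, smul_smul, Complex.I_mul_I]
  simp

theorem det_peel {m : Type*} [Fintype m] [DecidableEq m]
    {P1 Q1 S1 : Matrix m m ℂ} (hP1 : P1.PosDef) (hQ1 : Q1.PosDef) (hS1 : S1ᴴ = S1)
    (X Y : Matrix m (Fin 1) ℂ) (p q s : Matrix (Fin 1) (Fin 1) ℂ) :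
    (fromBlocks (fromBlocks P1 (Complex.I • S1) (Complex.I • S1) Q1) (fromBlocks X 0 0 Y)
      (fromBlocks Xᴴ 0 0 Yᴴ) (fromBlocks p (Complex.I • s) (Complex.I • s) q)).det =
    (fromBlocks P1 (Complex.I • S1) (Complex.I • S1) Q1).det *
      ((p 0 0 - (Xᴴ * P1⁻¹ * X) 0 0 +
          ((S1 * P1⁻¹ * X)ᴴ * (Q1 + S1 * P1⁻¹ * S1)⁻¹ * (S1 * P1⁻¹ * X)) 0 0) *
        (q 0 0 - (Yᴴ * (Q1 + S1 * P1⁻¹ * S1)⁻¹ * Y) 0 0) +
       (s 0 0 + ((S1 * P1⁻¹ * X)ᴴ * (Q1 + S1 * P1⁻¹ * S1)⁻¹ * Y) 0 0) *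
        (s 0 0 + (Yᴴ * (Q1 + S1 * P1⁻¹ * S1)⁻¹ * (S1 * P1⁻¹ * X)) 0 0)) := by
  have hK : (S1 * P1⁻¹ * S1).PosSemidef := by
    have := hP1.inv.posSemidef.conjTranspose_mul_mul_same S1
    rwa [hS1] at this
  have hΘ : (Q1 + S1 * P1⁻¹ * S1).PosDef := hQ1.add_posSemidef hK
  let _i1 := hP1.isUnit.invertible
  have hsch : Q1 - (Complex.I • S1) * ⅟P1 * (Complex.I • S1) = Q1 + S1 * P1⁻¹ * S1 := by
    rw [invOf_eq_nonsing_inv, schur_I]
  let _i2 : Invertible (Q1 - (Complex.I • S1) * ⅟P1 * (Complex.I • S1)) := by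
    rw [hsch]; exact hΘ.isUnit.invertible
  let _i3 := fromBlocks₁₁Invertible P1 (Complex.I • S1) (Complex.I • S1) Q1
  rw [det_fromBlocks₁₁, invOf_fromBlocks₁₁_eq]
  congr 1
  have hWH : (S1 * P1⁻¹ * X)ᴴ = Xᴴ * P1⁻¹ * S1 := by
    rw [conjTranspose_mul, conjTranspose_mul, hS1, hP1.inv.isHermitian.eq, Matrix.mul_assoc]
  rw [hWH]
  simp only [invOf_eq_nonsing_inv]
  rw [schur_I]
  set Θ := (Q1 + S1 * P1⁻¹ * S1)⁻¹ with hΘdef
  simp only [fromBlocks_multiply, Matrix.zero_mul, Matrix.mul_zero, add_zero, zero_add]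
  have e11 : Xᴴ * (P1⁻¹ + P1⁻¹ * Complex.I • S1 * Θ * Complex.I • S1 * P1⁻¹) * X =
      Xᴴ * P1⁻¹ * X - Xᴴ * P1⁻¹ * S1 * Θ * (S1 * P1⁻¹ * X) := by
    simp only [Matrix.mul_smul, Matrix.smul_mul, smul_smul, Complex.I_mul_I, Matrix.mul_add,
      Matrix.add_mul, neg_smul, one_smul, Matrix.mul_neg, Matrix.neg_mul, Matrix.mul_assoc,
      sub_eq_add_neg]
  have e12 : Xᴴ * -(P1⁻¹ * Complex.I • S1 * Θ) * Y =
      -(Complex.I • (Xᴴ * P1⁻¹ * S1 * Θ * Y)) := by
    simp only [Matrix.mul_smul, Matrix.smul_mul, Matrix.mul_neg, Matrix.neg_mul, Matrix.mul_assoc]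
  have e21 : Yᴴ * -(Θ * Complex.I • S1 * P1⁻¹) * X =
      -(Complex.I • (Yᴴ * Θ * (S1 * P1⁻¹ * X))) := by
    simp only [Matrix.mul_smul, Matrix.smul_mul, Matrix.mul_neg, Matrix.neg_mul, Matrix.mul_assoc]
  rw [e11, e12, e21, sub_eq_add_neg, fromBlocks_neg, fromBlocks_add, det_fromBlocks_one_one]
  simp only [Matrix.add_apply, Matrix.neg_apply, Matrix.smul_apply, Matrix.sub_apply, smul_eq_mul]
  linear_combination (-(s 0 0 + (Xᴴ * P1⁻¹ * S1 * Θ * Y) 0 0) *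
    (s 0 0 + (Yᴴ * Θ * (S1 * P1⁻¹ * X)) 0 0)) * Complex.I_mul_I

theorem exists_real_of_nonneg {z : ℂ} (h : 0 ≤ z) : ∃ r : ℝ, 0 ≤ r ∧ z = (r : ℂ) := by
  have h' := Complex.le_def.1 h
  exact ⟨z.re, by simpa using h'.1, Complex.ext (by simp) (by simpa using h'.2.symm)⟩

theorem exists_real_of_pos {z : ℂ} (h : 0 < z) : ∃ r : ℝ, 0 < r ∧ z = (r : ℂ) := by
  have h' := Complex.lt_def.1 h
  exact ⟨z.re, by simpa using h'.1, Complex.ext (by simp) (by simpa using h'.2.symm)⟩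

/-- the matrix `[[P, iS],[iS, Q]]` -/
noncomputable def bigT {n : Type*} [DecidableEq n] (P Q : Matrix n n ℂ) (σ : n → ℝ) :
    Matrix (n ⊕ n) (n ⊕ n) ℂ :=
  fromBlocks P (Complex.I • diagonal (fun k => (σ k : ℂ)))
    (Complex.I • diagonal (fun k => (σ k : ℂ))) Q

theorem diag_real_conjTranspose {n : Type*} [DecidableEq n] (σ : n → ℝ) :
    (diagonal (fun k => (σ k : ℂ)))ᴴ = diagonal (fun k => (σ k : ℂ)) := by
  rw [diagonal_conjTranspose]
  congr 1
  funext k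
  simp

theorem sandwich_posSemidef {n : Type*} [Fintype n] [DecidableEq n] {P : Matrix n n ℂ}
    (hP : P.PosDef) (σ : n → ℝ) :
    (diagonal (fun k => (σ k : ℂ)) * P⁻¹ * diagonal (fun k => (σ k : ℂ))).PosSemidef := by
  have := hP.inv.posSemidef.conjTranspose_mul_mul_same (diagonal (fun k => (σ k : ℂ)))
  rwa [diag_real_conjTranspose] at this

theorem det_bigT {n : Type*} [Fintype n] [DecidableEq n] {P Q : Matrix n n ℂ}
    (hP : P.PosDef) (σ : n → ℝ) :
    (bigT P Q σ).det = P.det *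
      (Q + diagonal (fun k => (σ k : ℂ)) * P⁻¹ * diagonal (fun k => (σ k : ℂ))).det := by
  let _i1 := hP.isUnit.invertible
  rw [bigT, det_fromBlocks₁₁, invOf_eq_nonsing_inv, schur_I]

theorem det_bigT_pos {n : Type*} [Fintype n] [DecidableEq n] {P Q : Matrix n n ℂ}
    (hP : P.PosDef) (hQ : Q.PosDef) (σ : n → ℝ) : 0 < (bigT P Q σ).det := by
  rw [det_bigT hP]
  exact mul_pos hP.det_pos (hQ.add_posSemidef (sandwich_posSemidef hP σ)).det_pos

/-- the statement, for a fixed index type -/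
def PinchStmt (n : Type*) [Fintype n] [DecidableEq n] : Prop :=
  ∀ (P Q : Matrix n n ℂ) (σ : n → ℝ), P.PosDef → Q.PosDef →
    (∏ k, ((P k k).re * (Q k k).re + σ k ^ 2)) * (P.det.re * Q.det.re) ≤
      (∏ k, ((P k k).re * (Q k k).re)) * (bigT P Q σ).det.re

/-- determinant of a positive definite matrix with a one-dimensional last block -/
theorem det_posDef_peel {m : Type*} [Fintype m] [DecidableEq m]
    {P : Matrix (m ⊕ Fin 1) (m ⊕ Fin 1) ℂ} (hP : P.PosDef) :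
    P.toBlocks₁₁.PosDef ∧ P.toBlocks₂₁ = P.toBlocks₁₂ᴴ ∧
    P.det = P.toBlocks₁₁.det *
      (P (Sum.inr 0) (Sum.inr 0) - (P.toBlocks₁₂ᴴ * P.toBlocks₁₁⁻¹ * P.toBlocks₁₂) 0 0) := by
  have h1 : P.toBlocks₁₁.PosDef := hP.submatrix Sum.inl_injective
  have h2 : P.toBlocks₂₁ = P.toBlocks₁₂ᴴ := by
    ext i j
    simp only [toBlocks₂₁, toBlocks₁₂, conjTranspose_apply, of_apply]
    exact (hP.isHermitian.apply _ _).symm
  refine ⟨h1, h2, ?_⟩
  let _i1 := h1.isUnit.invertible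
  conv_lhs => rw [← fromBlocks_toBlocks P]
  rw [det_fromBlocks₁₁, invOf_eq_nonsing_inv, h2,
    det_unique (P.toBlocks₂₂ - P.toBlocks₁₂ᴴ * P.toBlocks₁₁⁻¹ * P.toBlocks₁₂)]
  rfl

theorem pinch_step {m : Type*} [Fintype m] [DecidableEq m] (IH : PinchStmt m) :
    PinchStmt (m ⊕ Fin 1) := by
  intro P Q σ hP hQ
  obtain ⟨hP1, hP21, hPdet⟩ := det_posDef_peel hP
  obtain ⟨hQ1, hQ21, hQdet⟩ := det_posDef_peel hQ
  set P1 := P.toBlocks₁₁ with hP1def
  set X := P.toBlocks₁₂ with hXdef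
  set Q1 := Q.toBlocks₁₁ with hQ1def
  set Y := Q.toBlocks₁₂ with hYdef
  set σ1 : m → ℝ := fun i => σ (Sum.inl i) with hσ1
  set S1 : Matrix m m ℂ := diagonal (fun k => (σ1 k : ℂ)) with hS1def
  have hS1H : S1ᴴ = S1 := diag_real_conjTranspose σ1
  set Θ := (Q1 + S1 * P1⁻¹ * S1)⁻¹ with hΘdef
  set W := S1 * P1⁻¹ * X with hWdef
  have hT : (bigT P Q σ).det = (bigT P1 Q1 σ1).det *
      ((P (Sum.inr 0) (Sum.inr 0) - (Xᴴ * P1⁻¹ * X) 0 0 + (Wᴴ * Θ * W) 0 0) *
        (Q (Sum.inr 0) (Sum.inr 0) - (Yᴴ * Θ * Y) 0 0) +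
       ((σ (Sum.inr 0) : ℂ) + (Wᴴ * Θ * Y) 0 0) * ((σ (Sum.inr 0) : ℂ) + (Yᴴ * Θ * W) 0 0)) := by
    have hS : diagonal (fun k => (σ k : ℂ)) =
        fromBlocks S1 0 0 (diagonal fun j : Fin 1 => (σ (Sum.inr j) : ℂ)) := by
      rw [fromBlocks_diagonal]
      congr 1
      funext k
      cases k <;> rfl
    unfold bigT
    rw [hS]
    conv_lhs => rw [← fromBlocks_toBlocks P, ← fromBlocks_toBlocks Q]
    rw [det_reorder, hP21, hQ21, det_peel hP1 hQ1 hS1H]
    simp only [toBlocks₂₂, of_apply, diagonal_apply_eq]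
    rfl
  have hK : (S1 * P1⁻¹ * S1).PosSemidef := sandwich_posSemidef hP1 σ1
  have hΘpd : Θ.PosDef := (hQ1.add_posSemidef hK).inv
  obtain ⟨u, hu0, hu⟩ := exists_real_of_nonneg
    ((hP1.inv.posSemidef.conjTranspose_mul_mul_same X).diag_nonneg (i := 0))
  obtain ⟨δ, hδ0, hδ⟩ := exists_real_of_nonneg
    ((hΘpd.posSemidef.conjTranspose_mul_mul_same W).diag_nonneg (i := 0))
  obtain ⟨ν, hν0, hν⟩ := exists_real_of_nonneg
    ((hΘpd.posSemidef.conjTranspose_mul_mul_same Y).diag_nonneg (i := 0))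
  obtain ⟨e, he0, he⟩ := exists_real_of_nonneg
    (((inv_sub_inv_posSemidef hQ1 hK).conjTranspose_mul_mul_same Y).diag_nonneg (i := 0))
  obtain ⟨p, hp0, hp⟩ := exists_real_of_pos (hP.diag_pos (i := Sum.inr 0))
  obtain ⟨q, hq0, hq⟩ := exists_real_of_pos (hQ.diag_pos (i := Sum.inr 0))
  obtain ⟨dP, hdP0, hdP⟩ := exists_real_of_pos hP.det_pos
  obtain ⟨dQ, hdQ0, hdQ⟩ := exists_real_of_pos hQ.det_pos
  obtain ⟨dP1, hdP10, hdP1⟩ := exists_real_of_pos hP1.det_pos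
  obtain ⟨dQ1, hdQ10, hdQ1⟩ := exists_real_of_pos hQ1.det_pos
  obtain ⟨dT1, hdT10, hdT1⟩ := exists_real_of_pos (det_bigT_pos hP1 hQ1 σ1)
  have hv : (Yᴴ * Q1⁻¹ * Y) 0 0 = ((ν + e : ℝ) : ℂ) := by
    have : Yᴴ * (Q1⁻¹ - (Q1 + S1 * P1⁻¹ * S1)⁻¹) * Y = Yᴴ * Q1⁻¹ * Y - Yᴴ * Θ * Y := by
      rw [Matrix.mul_sub, Matrix.sub_mul]
    rw [this, Matrix.sub_apply, hν] at he
    push_cast
    linear_combination he
  set ω := (Wᴴ * Θ * Y) 0 0 with hω
  have hω' : (Yᴴ * Θ * W) 0 0 = star ω := by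
    have : Yᴴ * Θ * W = (Wᴴ * Θ * Y)ᴴ := by
      rw [conjTranspose_mul, conjTranspose_mul, conjTranspose_conjTranspose,
        hΘpd.isHermitian.eq, Matrix.mul_assoc]
    rw [this, conjTranspose_apply]
  have hcs := cs_posSemidef hΘpd.posSemidef W Y
  rw [hδ, hν, ← hω, hω'] at hcs
  have hcs' : ω.re ^ 2 + ω.im ^ 2 ≤ δ * ν := by
    have h1 := (Complex.le_def.1 hcs).1
    simp only [Complex.zero_re, Complex.sub_re, Complex.mul_re, Complex.ofReal_re,
      Complex.ofReal_im, Complex.star_def, Complex.conj_re, Complex.conj_im] at h1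
    nlinarith
  rw [hp, hu, hdP, hdP1] at hPdet
  rw [hq, hv, hdQ, hdQ1] at hQdet
  have hPdet' : dP = dP1 * (p - u) := by exact_mod_cast hPdet
  have hQdet' : dQ = dQ1 * (q - (ν + e)) := by exact_mod_cast hQdet
  have hup : u < p := by
    have : 0 < dP1 * (p - u) := hPdet' ▸ hdP0
    have := (mul_pos_iff_of_pos_left hdP10).1 this
    linarith
  have hvq : ν + e < q := by
    have : 0 < dQ1 * (q - (ν + e)) := hQdet' ▸ hdQ0
    have := (mul_pos_iff_of_pos_left hdQ10).1 this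
    linarith
  set s := σ (Sum.inr 0) with hs
  have hTre : (bigT P Q σ).det.re =
      dT1 * ((p - u + δ) * (q - ν) + ((s + ω.re) ^ 2 + ω.im ^ 2)) := by
    rw [hT, hdT1, hp, hq, hu, hδ, hν, hω']
    simp only [Complex.mul_re, Complex.add_re, Complex.sub_re, Complex.ofReal_re,
      Complex.ofReal_im, Complex.add_im, Complex.sub_im, Complex.mul_im, Complex.star_def,
      Complex.conj_re, Complex.conj_im]
    ring
  have hsc := peel_scalar (s := s) hu0 hup hvq hδ0 hν0 (by linarith : ν ≤ ν + e) hcs'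
  have hIH := IH P1 Q1 σ1 hP1 hQ1
  rw [hdP1, hdQ1, hdT1] at hIH
  simp only [Complex.ofReal_re] at hIH
  rw [hTre, hdP, hdQ, Fintype.prod_sum_type, Fintype.prod_sum_type]
  simp only [Complex.ofReal_re, Finset.univ_unique, Finset.prod_singleton, Fin.default_eq_zero,
    hp, hq]
  have hA : (∏ a₁, ((P (Sum.inl a₁) (Sum.inl a₁)).re * (Q (Sum.inl a₁) (Sum.inl a₁)).re
      + σ (Sum.inl a₁) ^ 2)) = ∏ k, ((P1 k k).re * (Q1 k k).re + σ1 k ^ 2) := rfl
  have hB : (∏ a₁, (P (Sum.inl a₁) (Sum.inl a₁)).re * (Q (Sum.inl a₁) (Sum.inl a₁)).re)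
      = ∏ k, (P1 k k).re * (Q1 k k).re := rfl
  rw [hA, hB, hPdet', hQdet']
  set A := ∏ k, ((P1 k k).re * (Q1 k k).re + σ1 k ^ 2) with hAdef
  set B := ∏ k, (P1 k k).re * (Q1 k k).re with hBdef
  have hB0 : 0 ≤ B := by
    apply Finset.prod_nonneg
    intro k _
    have h1 := (Complex.lt_def.1 (hP1.diag_pos (i := k))).1
    have h2 := (Complex.lt_def.1 (hQ1.diag_pos (i := k))).1
    simp only [Complex.zero_re] at h1 h2
    exact (mul_pos h1 h2).le
  have hC0 : 0 ≤ (p * q + s ^ 2) * ((p - u) * (q - (ν + e))) := by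
    have h1 : 0 < p - u := by linarith
    have h2 : 0 < q - (ν + e) := by linarith
    have h3 : 0 < p * q := mul_pos hp0 hq0
    positivity
  have hfin := mul_le_mul hIH hsc hC0 (mul_nonneg hB0 hdT10.le)
  calc A * (p * q + s ^ 2) * (dP1 * (p - u) * (dQ1 * (q - (ν + e))))
      = A * (dP1 * dQ1) * ((p * q + s ^ 2) * ((p - u) * (q - (ν + e)))) := by ring
    _ ≤ B * dT1 * (p * q * ((p - u + δ) * (q - ν) + ((s + ω.re) ^ 2 + ω.im ^ 2))) := hfin
    _ = B * (p * q) * (dT1 * ((p - u + δ) * (q - ν) + ((s + ω.re) ^ 2 + ω.im ^ 2))) := by ring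

theorem pinch_transfer {n n' : Type*} [Fintype n] [DecidableEq n] [Fintype n'] [DecidableEq n']
    (e : n ≃ n') (h : PinchStmt n') : PinchStmt n := by
  intro P Q σ hP hQ
  have h1 := h (P.submatrix e.symm e.symm) (Q.submatrix e.symm e.symm) (σ ∘ e.symm)
    (hP.submatrix e.symm.injective) (hQ.submatrix e.symm.injective)
  have hT : bigT (P.submatrix e.symm e.symm) (Q.submatrix e.symm e.symm) (σ ∘ e.symm) =
      (bigT P Q σ).submatrix (Equiv.sumCongr e.symm e.symm) (Equiv.sumCongr e.symm e.symm) := by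
    ext i j
    rcases i with i | i <;> rcases j with j | j <;>
      simp [bigT, diagonal_apply]
  rw [hT, det_submatrix_equiv_self, det_submatrix_equiv_self, det_submatrix_equiv_self] at h1
  simp only [submatrix_apply, Function.comp_apply] at h1
  rw [Equiv.prod_comp e.symm (fun k => (P k k).re * (Q k k).re + σ k ^ 2),
    Equiv.prod_comp e.symm (fun k => (P k k).re * (Q k k).re)] at h1
  exact h1

theorem pinch_fin : ∀ d : ℕ, PinchStmt (Fin d)
  | 0 => by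
    intro P Q σ _ _
    simp [bigT]
  | d + 1 => pinch_transfer (finSumFinEquiv (m := d) (n := 1)).symm (pinch_step (pinch_fin d))

/-- **Pinching determinant inequality**, block form. -/
theorem det_pinch {n : Type*} [Fintype n] [DecidableEq n] {P Q : Matrix n n ℂ}
    (hP : P.PosDef) (hQ : Q.PosDef) (σ : n → ℝ) :
    (∏ k, ((P k k).re * (Q k k).re + σ k ^ 2)) * (P.det.re * Q.det.re) ≤
      (∏ k, ((P k k).re * (Q k k).re)) * (bigT P Q σ).det.re :=
  pinch_transfer (Fintype.equivFin n) (pinch_fin _) P Q σ hP hQ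

/-- **Pinching determinant inequality**, Schur complement form:
`∏ (P_kk Q_kk + σ_k^2) * det Q ≤ ∏ (P_kk Q_kk) * det (Q + S P⁻¹ S)`. -/
theorem det_pinch_schur {n : Type*} [Fintype n] [DecidableEq n] {P Q : Matrix n n ℂ}
    (hP : P.PosDef) (hQ : Q.PosDef) (σ : n → ℝ) :
    (∏ k, ((P k k).re * (Q k k).re + σ k ^ 2)) * Q.det.re ≤
      (∏ k, ((P k k).re * (Q k k).re)) *
        (Q + diagonal (fun k => (σ k : ℂ)) * P⁻¹ * diagonal (fun k => (σ k : ℂ))).det.re := by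
  have h := det_pinch hP hQ σ
  obtain ⟨dP, hdP0, hdP⟩ := exists_real_of_pos hP.det_pos
  rw [det_bigT hP, hdP] at h
  simp only [Complex.mul_re, Complex.ofReal_re, Complex.ofReal_im, zero_mul, sub_zero] at h
  have h2 : dP * ((∏ k, ((P k k).re * (Q k k).re + σ k ^ 2)) * Q.det.re) ≤
      dP * ((∏ k, ((P k k).re * (Q k k).re)) *
        (Q + diagonal (fun k => (σ k : ℂ)) * P⁻¹ * diagonal (fun k => (σ k : ℂ))).det.re) := by
    calc _ = (∏ k, ((P k k).re * (Q k k).re + σ k ^ 2)) * (dP * Q.det.re) := by ring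
      _ ≤ _ := h
      _ = _ := by ring
  exact le_of_mul_le_mul_left h2 hdP0

end P358
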